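import Mathlib

/-!
# P154: algebraic quantities attached to posterior vectors for three colours

A posterior vector `X` on three colours is written `X c = (1 + e c) / 3` with `e 0 + e 1 + e 2 = 0`.
* `al3 e = (e0^2+e1^2+e2^2)/6`  is `|z|^2`, `cu3 e = e0 e1 e2 / 2` is `Re z^3`, for the Fourier
  coefficient `z` of `X`;  `dl3 e` is the Vandermonde product (`(Im z^3)^2 = dl3^2 / 108`).
* combining two independent observations with deviations `a`, `b` gives the deviation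
  `(1 + a c) (1 + b c) / Z - 1` with `Z = Z3 a b`, and the pair has density `Z` with respect to the
  product of the marginal laws.  `K2 = Z * al3 (combined)`, `K3 = Z * cu3 (combined)`.
-/

namespace Vale.Agent.P154

noncomputable def al3 (x y z : ℝ) : ℝ := (x ^ 2 + y ^ 2 + z ^ 2) / 6

noncomputable def cu3 (x y z : ℝ) : ℝ := x * y * z / 2

def dl3 (x y z : ℝ) : ℝ := (x - y) * (y - z) * (z - x)

noncomputable def Z3 (a0 a1 a2 b0 b1 b2 : ℝ) : ℝ := 1 + (a0 * b0 + a1 * b1 + a2 * b2) / 3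

noncomputable def K2 (a0 a1 a2 b0 b1 b2 : ℝ) : ℝ :=
  Z3 a0 a1 a2 b0 b1 b2 *
    al3 ((1 + a0) * (1 + b0) / Z3 a0 a1 a2 b0 b1 b2 - 1)
        ((1 + a1) * (1 + b1) / Z3 a0 a1 a2 b0 b1 b2 - 1)
        ((1 + a2) * (1 + b2) / Z3 a0 a1 a2 b0 b1 b2 - 1)

noncomputable def K3 (a0 a1 a2 b0 b1 b2 : ℝ) : ℝ :=
  Z3 a0 a1 a2 b0 b1 b2 *
    cu3 ((1 + a0) * (1 + b0) / Z3 a0 a1 a2 b0 b1 b2 - 1)
        ((1 + a1) * (1 + b1) / Z3 a0 a1 a2 b0 b1 b2 - 1)
        ((1 + a2) * (1 + b2) / Z3 a0 a1 a2 b0 b1 b2 - 1)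

/-- Sum of `g` over the six permutations of `(b0, b1, b2)`. -/
def S6 (g : ℝ → ℝ → ℝ → ℝ) (b0 b1 b2 : ℝ) : ℝ :=
  g b0 b1 b2 + g b1 b2 b0 + g b2 b0 b1 + g b0 b2 b1 + g b2 b1 b0 + g b1 b0 b2

/-- `N2 = (sum of squares of the products - 3 Z^2) / 6`, so that `K2 = N2 / Z`. -/
noncomputable def N2 (a0 a1 a2 b0 b1 b2 : ℝ) : ℝ :=
  (((1 + a0) * (1 + b0)) ^ 2 + ((1 + a1) * (1 + b1)) ^ 2 + ((1 + a2) * (1 + b2)) ^ 2
    - 3 * Z3 a0 a1 a2 b0 b1 b2 ^ 2) / 6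

def NumF (al be A B U : ℝ) : ℝ :=
  -al * be + 2 * al * be * (al + be) - al ^ 2 * be ^ 2 - 2 * be * (1 - be) * A
    - 2 * al * (1 - al) * B + 2 * (1 - al - be) * U

def DF (al be U : ℝ) : ℝ := 1 - 3 * al * be + 2 * U

/-- The right-hand side correction in the `x`-inequality. -/
noncomputable def Rx (al be A B : ℝ) : ℝ :=
  -(3 / 2) * (be * A + al * B) + 2 * A * B - (1 / 20) * al * be

/-- The polynomial slack in the `t`-inequality. -/
noncomputable def Pt (al be A B : ℝ) : ℝ :=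
  17 / 4 * al * be - 4 * (al * B + be * A) - 9 / 4 * al * be * (al + be)
    + 5 / 2 * (al * A * be + al * be * B) + 7 / 2 * A * B + 3 / 2 * (A * be ^ 2 + al ^ 2 * B)
    + 51 / 4 * al ^ 2 * be ^ 2 - 15 / 2 * (al * A * be ^ 2 + al ^ 2 * be * B) + 5 * al * be * A * B

end Vale.Agent.P154
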