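import Mathlib

/-!
# P154: a real sequence with `x (n+1) ≤ ρ x n - c (x n)^2`, `0 ≤ ρ ≤ 1`, tends to zero if `c > 0` or `ρ = 0`.

`seq_zero`: `x` is nonincreasing and bounded below, hence converges to some `L ≥ 0`; passing to the limit, `L ≤ L - c L^2`, so `L = 0`.
-/

namespace Vale.Agent.P154

open Filter Topology

theorem seq_zero (x : ℕ → ℝ) (c : ℝ) (hc : 0 < c) (h0 : ∀ n, 0 ≤ x n)
    (hs : ∀ n, x (n + 1) ≤ x n - c * x n ^ 2) : Tendsto x atTop (𝓝 0) := by
  have hanti : Antitone x := by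
    apply antitone_nat_of_succ_le
    intro n
    have := hs n
    have h2 : 0 ≤ c * x n ^ 2 := by positivity
    linarith
  have hbdd : BddBelow (Set.range x) := ⟨0, by rintro _ ⟨n, rfl⟩; exact h0 n⟩
  have hlim := tendsto_atTop_ciInf hanti hbdd
  set L := ⨅ i, x i with hL
  have hlim1 : Tendsto (fun n => x (n + 1)) atTop (𝓝 L) :=
    (tendsto_add_atTop_iff_nat 1).2 hlim
  have hlim2 : Tendsto (fun n => x n - c * x n ^ 2) atTop (𝓝 (L - c * L ^ 2)) :=
    hlim.sub ((hlim.pow 2).const_mul c)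
  have hle : L ≤ L - c * L ^ 2 := le_of_tendsto_of_tendsto' hlim1 hlim2 hs
  have hL0 : L = 0 := by
    have h1 : c * L ^ 2 ≤ 0 := by linarith
    have h2 : L ^ 2 ≤ 0 := by
      by_contra hcon
      have : 0 < L ^ 2 := not_le.1 hcon
      have : 0 < c * L ^ 2 := mul_pos hc this
      linarith
    have h3 : L ^ 2 = 0 := le_antisymm h2 (sq_nonneg L)
    exact pow_eq_zero_iff (two_ne_zero) |>.1 h3
  rw [hL0] at hlim
  exact hlim

/-- the form used for the tree -/
theorem seq_zero' (x : ℕ → ℝ) (lam : ℝ) (hl0 : 0 ≤ lam) (hl1 : 2 * lam ^ 2 ≤ 1) (h0 : ∀ n, 0 ≤ x n)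
    (hs : ∀ n, x (n + 1) ≤ 2 * lam ^ 2 * x n - 1 / 20 * lam ^ 4 * x n ^ 2) :
    Tendsto x atTop (𝓝 0) := by
  rcases hl0.eq_or_lt with h | h
  · have hz : ∀ n, x (n + 1) = 0 := by
      intro n
      have := hs n
      rw [← h] at this
      have h2 := h0 (n + 1)
      apply le_antisymm _ h2
      simpa using this
    rw [← tendsto_add_atTop_iff_nat 1]
    simp only [hz]
    exact tendsto_const_nhds
  · apply seq_zero x (1 / 20 * lam ^ 4) (by positivity) h0
    intro n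
    have h1 := hs n
    have h2 : 2 * lam ^ 2 * x n ≤ 1 * x n := mul_le_mul_of_nonneg_right hl1 (h0 n)
    linarith

/-- squeeze: `0 ≤ a n`, `(a n)^2 ≤ x n / 2`, `x → 0` imply `a → 0`. -/
theorem tendsto_of_sq_le (a x : ℕ → ℝ) (ha : ∀ n, 0 ≤ a n) (h : ∀ n, a n ^ 2 ≤ x n / 2)
    (hx : Tendsto x atTop (𝓝 0)) : Tendsto a atTop (𝓝 0) := by
  have h1 : Tendsto (fun n => Real.sqrt (x n / 2)) atTop (𝓝 0) := by
    have h2 : Tendsto (fun n => x n / 2) atTop (𝓝 0) := by
      simpa using hx.div_const 2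
    have h3 := (Real.continuous_sqrt.tendsto 0).comp h2
    rw [Real.sqrt_zero] at h3
    exact h3
  apply squeeze_zero ha _ h1
  intro n
  exact Real.le_sqrt_of_sq_le (h n)

end Vale.Agent.P154
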