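import Mathlib

/-!
# P154: broadcasting with the Potts channel on the rooted `d`-ary tree

The model of the problem file, written through the Markov recursion of the tree.
* `potts q lam i j` is the transition probability `P_lam (j | i)`.
* `Conf q d n` is the set of colourings of the `d ^ n` leaves at depth `n`: a colouring of the
  leaves of the tree of depth `n + 1` is a family of colourings of the leaves of the `d` subtrees
  hanging at the children of the root.
* `lik q d lam n i η` is the probability that the spins at depth `n` are `η`, given that the root
  spin is `i`: the children of the root get independent spins through the channel and the `d`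
  subtrees evolve independently.
* `marg`, `post` are the law of the leaf spins (uniform root) and the posterior law of the root.
* `aTV q d lam n` is the quantity `a_n` of the problem file.
-/

namespace Vale.Agent.P154

/-- The `q`-state Potts channel `P_lam (j | i) = lam * 1{i = j} + (1 - lam) / q`. -/
noncomputable def potts (q : ℕ) (lam : ℝ) (i j : Fin q) : ℝ :=
  lam * (if i = j then 1 else 0) + (1 - lam) / q

/-- Colourings of the leaves at depth `n` of the rooted `d`-ary tree. -/
def Conf (q d : ℕ) : ℕ → Type
  | 0 => Fin q
  | n + 1 => Fin d → Conf q d n

instance Conf.fintype (q d : ℕ) : (n : ℕ) → Fintype (Conf q d n)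
  | 0 => inferInstanceAs (Fintype (Fin q))
  | n + 1 =>
    haveI := Conf.fintype q d n
    inferInstanceAs (Fintype (Fin d → Conf q d n))

/-- Probability of the leaf colouring `η` at depth `n` given the root spin `i`. -/
noncomputable def lik (q d : ℕ) (lam : ℝ) : (n : ℕ) → Fin q → Conf q d n → ℝ
  | 0, i, η => if (show Fin q from η) = i then 1 else 0
  | n + 1, i, η => ∏ k : Fin d, ∑ j : Fin q, potts q lam i j * lik q d lam n j (η k)

/-- Probability of the leaf colouring `η` when the root spin is uniform. -/
noncomputable def marg (q d : ℕ) (lam : ℝ) (n : ℕ) (η : Conf q d n) : ℝ :=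
  ∑ i : Fin q, (1 / (q : ℝ)) * lik q d lam n i η

/-- Posterior probability that the root spin is `i`, given the leaf colouring `η`. -/
noncomputable def post (q d : ℕ) (lam : ℝ) (n : ℕ) (i : Fin q) (η : Conf q d n) : ℝ :=
  (1 / (q : ℝ)) * lik q d lam n i η / marg q d lam n η

/-- `a_n`: expected total variation distance between the posterior of the root and the uniform law. -/
noncomputable def aTV (q d : ℕ) (lam : ℝ) (n : ℕ) : ℝ :=
  ∑ η : Conf q d n, marg q d lam n η * ((1 / 2) * ∑ i : Fin q, |post q d lam n i η - 1 / (q : ℝ)|)

end Vale.Agent.P154
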