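import Vale.Agent.P154.Alg

/-!
# P154: elementary facts on the domain of the deviations

`a0 + a1 + a2 = 0`, `-(5/7) ≤ a i`, `al3 a ≤ 1/2`.
All proofs: substitute `a2 = -a0 - a1`, unfold, `nlinarith` / `ring` identities.
* `cube_id`:  `al3^3 - cu3^2 = dl3^2 / 108`  (ring identity after the substitution).
* `tri`: `(a0 + 5/7) (a1 + 5/7) (a2 + 5/7) = 2 cu3 - (15/7) al3 + 125/343` (ring identity), and a product of
  three nonnegative numbers is nonnegative.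
* `cu3_le`, `cu3_ge`: with `al = al3`, `A = cu3`: `A^2 ≤ al^3 ≤ al^2 / 2 < (5/7)^2 al^2` gives `|A| ≤ (5/7) al`.
  For the lower bound `-(5/14) al ≤ A`: if `al ≤ 25/196` then `A^2 ≤ al^3 ≤ (25/196) al^2`; otherwise use `tri`:
  `2 A ≥ (15/7) al - 125/343 ≥ -(5/7) al` because `(20/7) al ≥ 125/343`.
-/

namespace Vale.Agent.P154

theorem al3_nonneg (x y z : ℝ) : 0 ≤ al3 x y z := by
  unfold al3
  positivity

theorem cube_id (a0 a1 a2 : ℝ) (h : a0 + a1 + a2 = 0) :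
    al3 a0 a1 a2 ^ 3 - cu3 a0 a1 a2 ^ 2 = dl3 a0 a1 a2 ^ 2 / 108 := by
  obtain rfl : a2 = -a0 - a1 := by linarith
  unfold al3 cu3 dl3
  ring

theorem cu3_sq_le (a0 a1 a2 : ℝ) (h : a0 + a1 + a2 = 0) :
    cu3 a0 a1 a2 ^ 2 ≤ al3 a0 a1 a2 ^ 3 := by
  have h1 := cube_id a0 a1 a2 h
  have h2 : 0 ≤ dl3 a0 a1 a2 ^ 2 / 108 := by positivity
  linarith

theorem tri (a0 a1 a2 : ℝ) (h : a0 + a1 + a2 = 0) (h0 : -(5 / 7) ≤ a0) (h1 : -(5 / 7) ≤ a1)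
    (h2 : -(5 / 7) ≤ a2) : 0 ≤ 2 * cu3 a0 a1 a2 - 15 / 7 * al3 a0 a1 a2 + 125 / 343 := by
  have hp : 0 ≤ (a0 + 5 / 7) * (a1 + 5 / 7) * (a2 + 5 / 7) :=
    mul_nonneg (mul_nonneg (by linarith) (by linarith)) (by linarith)
  have he : (a0 + 5 / 7) * (a1 + 5 / 7) * (a2 + 5 / 7)
      = 2 * cu3 a0 a1 a2 - 15 / 7 * al3 a0 a1 a2 + 125 / 343 := by
    obtain rfl : a2 = -a0 - a1 := by linarith
    unfold al3 cu3
    ring
  linarith

/-- abstract form: bounds on `A` from the three constraints -/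
theorem A_le (al A : ℝ) (h0 : 0 ≤ al) (h1 : al ≤ 1 / 2) (h2 : A ^ 2 ≤ al ^ 3) : A ≤ 5 / 7 * al := by
  have h3 : al ^ 3 ≤ (5 / 7 * al) ^ 2 := by
    have : 0 ≤ al ^ 2 * (25 / 49 - al) := mul_nonneg (by positivity) (by linarith)
    nlinarith
  exact le_trans (le_abs_self A) (abs_le_of_sq_le_sq (le_trans h2 h3) (by positivity))

theorem A_ge (al A : ℝ) (h0 : 0 ≤ al) (h1 : al ≤ 1 / 2) (h2 : A ^ 2 ≤ al ^ 3)
    (h3 : 0 ≤ 2 * A - 15 / 7 * al + 125 / 343) : -(5 / 14) * al ≤ A := by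
  rcases le_total al (25 / 196) with h | h
  · have h4 : al ^ 3 ≤ (5 / 14 * al) ^ 2 := by
      have : 0 ≤ al ^ 2 * (25 / 196 - al) := mul_nonneg (by positivity) (by linarith)
      nlinarith
    have h5 : (-A) ^ 2 ≤ (5 / 14 * al) ^ 2 := by
      have : (-A) ^ 2 = A ^ 2 := by ring
      linarith
    have h6 : -A ≤ 5 / 14 * al := le_trans (le_abs_self (-A)) (abs_le_of_sq_le_sq h5 (by positivity))
    linarith
  · linarith

/-- a posterior deviation has `al3 ≤ 1` -/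
theorem al3_le_one (e0 e1 e2 : ℝ) (h : e0 + e1 + e2 = 0) (h0 : -1 ≤ e0) (h1 : -1 ≤ e1)
    (h2 : -1 ≤ e2) : al3 e0 e1 e2 ≤ 1 := by
  obtain rfl : e2 = -e0 - e1 := by linarith
  unfold al3
  nlinarith [mul_nonneg (by linarith : (0:ℝ) ≤ e0 + 1) (by linarith : (0:ℝ) ≤ e1 + 1),
    mul_nonneg (by linarith : (0:ℝ) ≤ e0 + 1) (by linarith : (0:ℝ) ≤ (-e0 - e1) + 1),
    mul_nonneg (by linarith : (0:ℝ) ≤ e1 + 1) (by linarith : (0:ℝ) ≤ (-e0 - e1) + 1)]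

theorem al3_smul (l e0 e1 e2 : ℝ) : al3 (l * e0) (l * e1) (l * e2) = l ^ 2 * al3 e0 e1 e2 := by
  unfold al3
  ring

theorem cu3_smul (l e0 e1 e2 : ℝ) : cu3 (l * e0) (l * e1) (l * e2) = l ^ 3 * cu3 e0 e1 e2 := by
  unfold cu3
  ring

/-- `Z3 > 0` when all `1 + a i`, `1 + b i` are positive (sum-zero vectors):
`3 Z3 = sum (1 + a i) (1 + b i)`. -/
theorem Z3_pos (a0 a1 a2 b0 b1 b2 : ℝ) (ha : a0 + a1 + a2 = 0) (hb : b0 + b1 + b2 = 0)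
    (ha0 : -1 < a0) (ha1 : -1 < a1) (ha2 : -1 < a2) (hb0 : -1 < b0) (hb1 : -1 < b1)
    (hb2 : -1 < b2) : 0 < Z3 a0 a1 a2 b0 b1 b2 := by
  have e : Z3 a0 a1 a2 b0 b1 b2
      = ((1 + a0) * (1 + b0) + (1 + a1) * (1 + b1) + (1 + a2) * (1 + b2)) / 3 := by
    obtain rfl : a2 = -a0 - a1 := by linarith
    obtain rfl : b2 = -b0 - b1 := by linarith
    unfold Z3
    ring
  rw [e]
  have p0 : 0 < (1 + a0) * (1 + b0) := mul_pos (by linarith) (by linarith)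
  have p1 : 0 < (1 + a1) * (1 + b1) := mul_pos (by linarith) (by linarith)
  have p2 : 0 < (1 + a2) * (1 + b2) := mul_pos (by linarith) (by linarith)
  positivity

/-- Cauchy-Schwarz: `(Z3 - 1)^2 ≤ 4 al3 a al3 b`, hence `Z3 ≤ 2` when both `al3 ≤ 1/2`. -/
theorem Z3_le_two (a0 a1 a2 b0 b1 b2 : ℝ) (ha : al3 a0 a1 a2 ≤ 1 / 2) (hb : al3 b0 b1 b2 ≤ 1 / 2) :
    Z3 a0 a1 a2 b0 b1 b2 ≤ 2 := by
  unfold al3 at ha hb
  unfold Z3
  nlinarith [sq_nonneg (a0 - b0), sq_nonneg (a1 - b1), sq_nonneg (a2 - b2)]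

end Vale.Agent.P154
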