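import Vale.Agent.P154.RotSum

/-!
# P154: polynomial lower bound for `K3`

With `Z = Z3 a b = 1 + δ`, `Da = (1+a0)(1+a1)(1+a2)`, `Db` alike:
`K3 a b = (Da Db / Z^2 - Z + 3 N2 / Z) / 2`   (field_simp; ring, uses the sum-zero conditions).
For `0 < Z ≤ 2`:  `1 / Z ≥ 1 - δ + δ^2 / 2`  (difference `= δ^2 (1 - δ) / (2 Z)`) and
`1 / Z^2 ≥ 1 - 2 δ + (5/4) δ^2`  (difference times `Z^2` is `δ^2 (7/4 - δ/2 - (5/4) δ^2) ≥ 0` for `-1 < δ ≤ 1`).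
Since `Da Db ≥ 0`, `N2 ≥ 0` (`N2_nonneg`), `0 < Z ≤ 2` (`Z3_pos`, `Z3_le_two`):  `K3 a b ≥ ell a b`.
-/

namespace Vale.Agent.P154

noncomputable def ell (a0 a1 a2 b0 b1 b2 : ℝ) : ℝ :=
  ((1 + a0) * (1 + a1) * (1 + a2) * ((1 + b0) * (1 + b1) * (1 + b2)) *
      (1 - 2 * (Z3 a0 a1 a2 b0 b1 b2 - 1) + 5 / 4 * (Z3 a0 a1 a2 b0 b1 b2 - 1) ^ 2)
    - Z3 a0 a1 a2 b0 b1 b2
    + 3 * N2 a0 a1 a2 b0 b1 b2 *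
      (1 - (Z3 a0 a1 a2 b0 b1 b2 - 1) + (Z3 a0 a1 a2 b0 b1 b2 - 1) ^ 2 / 2)) / 2

theorem inv_ge (Z : ℝ) (h0 : 0 < Z) (h1 : Z ≤ 2) : 1 - (Z - 1) + (Z - 1) ^ 2 / 2 ≤ 1 / Z := by
  rw [le_div_iff₀ h0]
  nlinarith [mul_nonneg (sq_nonneg (Z - 1)) (by linarith : (0 : ℝ) ≤ 2 - Z)]

theorem inv_sq_ge (Z : ℝ) (h0 : 0 < Z) (h1 : Z ≤ 2) :
    1 - 2 * (Z - 1) + 5 / 4 * (Z - 1) ^ 2 ≤ 1 / Z ^ 2 := by
  rw [le_div_iff₀ (by positivity)]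
  have h2 : 0 ≤ (Z - 1) ^ 2 * ((2 - Z) * (5 * Z + 2)) :=
    mul_nonneg (sq_nonneg _) (mul_nonneg (by linarith) (by linarith))
  nlinarith [h2]

theorem K3_eq (a0 a1 a2 b0 b1 b2 : ℝ) (ha : a0 + a1 + a2 = 0) (hb : b0 + b1 + b2 = 0)
    (hZ : 0 < Z3 a0 a1 a2 b0 b1 b2) :
    K3 a0 a1 a2 b0 b1 b2 =
      ((1 + a0) * (1 + a1) * (1 + a2) * ((1 + b0) * (1 + b1) * (1 + b2)) * (1 / Z3 a0 a1 a2 b0 b1 b2 ^ 2)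
        - Z3 a0 a1 a2 b0 b1 b2 + 3 * N2 a0 a1 a2 b0 b1 b2 * (1 / Z3 a0 a1 a2 b0 b1 b2)) / 2 := by
  have hs : (1 + a0) * (1 + b0) + (1 + a1) * (1 + b1) + (1 + a2) * (1 + b2)
      = 3 * Z3 a0 a1 a2 b0 b1 b2 := by
    obtain rfl : a2 = -a0 - a1 := by linarith
    obtain rfl : b2 = -b0 - b1 := by linarith
    unfold Z3
    ring
  have hp : (1 + a0) * (1 + a1) * (1 + a2) * ((1 + b0) * (1 + b1) * (1 + b2))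
      = ((1 + a0) * (1 + b0)) * ((1 + a1) * (1 + b1)) * ((1 + a2) * (1 + b2)) := by ring
  rw [hp]
  unfold K3 cu3 N2
  generalize Z3 a0 a1 a2 b0 b1 b2 = Z at hs hZ ⊢
  generalize (1 + a0) * (1 + b0) = p0 at hs ⊢
  generalize (1 + a1) * (1 + b1) = p1 at hs ⊢
  generalize (1 + a2) * (1 + b2) = p2 at hs ⊢
  obtain rfl : p2 = 3 * Z - p0 - p1 := by linarith
  field_simp
  ring

theorem K3_ge (a0 a1 a2 b0 b1 b2 : ℝ) (ha : a0 + a1 + a2 = 0) (hb : b0 + b1 + b2 = 0)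
    (ha0 : -1 < a0) (ha1 : -1 < a1) (ha2 : -1 < a2) (hb0 : -1 < b0) (hb1 : -1 < b1) (hb2 : -1 < b2)
    (hal : al3 a0 a1 a2 ≤ 1 / 2) (hbe : al3 b0 b1 b2 ≤ 1 / 2) :
    ell a0 a1 a2 b0 b1 b2 ≤ K3 a0 a1 a2 b0 b1 b2 := by
  have hZ : 0 < Z3 a0 a1 a2 b0 b1 b2 := Z3_pos a0 a1 a2 b0 b1 b2 ha hb ha0 ha1 ha2 hb0 hb1 hb2
  have hZ2 : Z3 a0 a1 a2 b0 b1 b2 ≤ 2 := Z3_le_two a0 a1 a2 b0 b1 b2 hal hbe
  have hN : 0 ≤ N2 a0 a1 a2 b0 b1 b2 := N2_nonneg a0 a1 a2 b0 b1 b2 ha hb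
  have hD : 0 ≤ (1 + a0) * (1 + a1) * (1 + a2) * ((1 + b0) * (1 + b1) * (1 + b2)) := by
    have q0 : 0 < 1 + a0 := by linarith
    have q1 : 0 < 1 + a1 := by linarith
    have q2 : 0 < 1 + a2 := by linarith
    have q3 : 0 < 1 + b0 := by linarith
    have q4 : 0 < 1 + b1 := by linarith
    have q5 : 0 < 1 + b2 := by linarith
    positivity
  rw [K3_eq a0 a1 a2 b0 b1 b2 ha hb hZ]
  unfold ell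
  have i1 := mul_le_mul_of_nonneg_left (inv_sq_ge _ hZ hZ2) hD
  have i2 := mul_le_mul_of_nonneg_left (inv_ge _ hZ hZ2) hN
  linarith

end Vale.Agent.P154
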