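import Vale.Agent.P154.Ell

/-!
# P154: the sum of `ell` over the six permutations is a polynomial identity

Substitute `a2 = -a0 - a1`, `b2 = -b0 - b1`, unfold everything, `ring`.  If `ring` is too slow in one go, split `ell` into its
homogeneous pieces / treat the three summands of `ell` separately.  (Checked with exact rational arithmetic on random points.)
-/

namespace Vale.Agent.P154

theorem ell_sum (a0 a1 a2 b0 b1 b2 : ℝ) (ha : a0 + a1 + a2 = 0) (hb : b0 + b1 + b2 = 0) :
    S6 (ell a0 a1 a2) b0 b1 b2 =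
      6 * ((1 - 2 * al3 b0 b1 b2) * cu3 a0 a1 a2 + (1 - 2 * al3 a0 a1 a2) * cu3 b0 b1 b2
        + Pt (al3 a0 a1 a2) (al3 b0 b1 b2) (cu3 a0 a1 a2) (cu3 b0 b1 b2)) := by
  obtain rfl : a2 = -a0 - a1 := by linarith
  obtain rfl : b2 = -b0 - b1 := by linarith
  simp only [S6, ell, N2, Z3, Pt, al3, cu3]
  ring

end Vale.Agent.P154
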