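import Vale.Agent.P154.Dom

/-!
# P154: finite symmetric experiments and one step of the binary recursion (definitions)

A finite experiment is a finite family of posterior deviations `e η` with weights `w η`.
`Good w e`: weights positive with total mass one, deviations sum to zero and are `≥ -1`, and the law of the deviation
vector is invariant under the rotation and under one transposition of the three colours.

`w2`, `e2`: the experiment seen by the parent of two independent copies, both read through the channel `lam`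
(the channel multiplies deviations by `lam`).
-/

namespace Vale.Agent.P154

open Finset

structure Good {ι : Type} [Fintype ι] (w : ι → ℝ) (e : ι → Fin 3 → ℝ) : Prop where
  pos : ∀ η, 0 < w η
  tot : ∑ η, w η = 1
  zero : ∀ η, e η 0 + e η 1 + e η 2 = 0
  ge : ∀ η i, -1 ≤ e η i
  rot : ∀ f : ℝ → ℝ → ℝ → ℝ,
    ∑ η, w η * f (e η 0) (e η 1) (e η 2) = ∑ η, w η * f (e η 1) (e η 2) (e η 0)
  swp : ∀ f : ℝ → ℝ → ℝ → ℝ,
    ∑ η, w η * f (e η 0) (e η 1) (e η 2) = ∑ η, w η * f (e η 0) (e η 2) (e η 1)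

noncomputable def Xf {ι : Type} [Fintype ι] (w : ι → ℝ) (e : ι → Fin 3 → ℝ) : ℝ :=
  ∑ η, w η * al3 (e η 0) (e η 1) (e η 2)

noncomputable def Tf {ι : Type} [Fintype ι] (w : ι → ℝ) (e : ι → Fin 3 → ℝ) : ℝ :=
  ∑ η, w η * cu3 (e η 0) (e η 1) (e η 2)

noncomputable def ZZ {ι : Type} (lam : ℝ) (e : ι → Fin 3 → ℝ) (p : ι × ι) : ℝ :=
  Z3 (lam * e p.1 0) (lam * e p.1 1) (lam * e p.1 2) (lam * e p.2 0) (lam * e p.2 1) (lam * e p.2 2)

noncomputable def w2 {ι : Type} (lam : ℝ) (w : ι → ℝ) (e : ι → Fin 3 → ℝ) (p : ι × ι) : ℝ :=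
  w p.1 * w p.2 * ZZ lam e p

noncomputable def e2 {ι : Type} (lam : ℝ) (e : ι → Fin 3 → ℝ) (p : ι × ι) (i : Fin 3) : ℝ :=
  (1 + lam * e p.1 i) * (1 + lam * e p.2 i) / ZZ lam e p - 1

variable {ι : Type} [Fintype ι] {w : ι → ℝ} {e : ι → Fin 3 → ℝ}

theorem lam_le (lam : ℝ) (h0 : 0 ≤ lam) (h1 : 2 * lam ^ 2 ≤ 1) : lam ≤ 5 / 7 := by
  nlinarith

end Vale.Agent.P154
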