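import Vale.Agent.P154.Fam

/-!
# P154: transport of experiments along a bijection of the index sets (`Equiv.sum_comp`)
-/

namespace Vale.Agent.P154

open Finset

variable {ι : Type} [Fintype ι] {w : ι → ℝ} {e : ι → Fin 3 → ℝ}

/-- transport along a bijection of the index sets -/
theorem Good.of_equiv {κ : Type} [Fintype κ] (φ : κ ≃ ι) (h : Good w e) :
    Good (fun k => w (φ k)) (fun k => e (φ k)) := by
  refine ⟨fun k => h.pos (φ k), ?_, fun k => h.zero (φ k), fun k i => h.ge (φ k) i, ?_, ?_⟩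
  · rw [Equiv.sum_comp φ w]
    exact h.tot
  · intro f
    rw [Equiv.sum_comp φ (fun η => w η * f (e η 0) (e η 1) (e η 2)),
      Equiv.sum_comp φ (fun η => w η * f (e η 1) (e η 2) (e η 0))]
    exact h.rot f
  · intro f
    rw [Equiv.sum_comp φ (fun η => w η * f (e η 0) (e η 1) (e η 2)),
      Equiv.sum_comp φ (fun η => w η * f (e η 0) (e η 2) (e η 1))]
    exact h.swp f

theorem Xf_equiv {κ : Type} [Fintype κ] (φ : κ ≃ ι) (w : ι → ℝ) (e : ι → Fin 3 → ℝ) :
    Xf (fun k => w (φ k)) (fun k => e (φ k)) = Xf w e := by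
  unfold Xf
  exact Equiv.sum_comp φ (fun η => w η * al3 (e η 0) (e η 1) (e η 2))

theorem Tf_equiv {κ : Type} [Fintype κ] (φ : κ ≃ ι) (w : ι → ℝ) (e : ι → Fin 3 → ℝ) :
    Tf (fun k => w (φ k)) (fun k => e (φ k)) = Tf w e := by
  unfold Tf
  exact Equiv.sum_comp φ (fun η => w η * cu3 (e η 0) (e η 1) (e η 2))

end Vale.Agent.P154
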