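import Vale.Agent.P154.Fam

/-!
# P154: basic consequences of `Good`

* `Good.six`: apply `rot` and `swp` to `f` and to its permuted versions (`fun x y z => f y z x` etc.), add up.
* `Good.dom`: `lam ≤ 5/7` (`lam_le`), `-1 ≤ e η i` give `-(5/7) ≤ lam * e η i`; `al3_smul`, `al3_le_one`, `2 lam^2 ≤ 1`.
* `Good.ZZ_pos`: `Z3_pos` with `Good.dom`.
-/

namespace Vale.Agent.P154

open Finset

variable {ι : Type} [Fintype ι] {w : ι → ℝ} {e : ι → Fin 3 → ℝ}

/-- averaging over the six permutations -/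
theorem Good.six (h : Good w e) (f : ℝ → ℝ → ℝ → ℝ) :
    ∑ η, w η * f (e η 0) (e η 1) (e η 2) = (1 / 6) * ∑ η, w η * S6 f (e η 0) (e η 1) (e η 2) := by
  have r1 := h.rot f
  have r2 := h.rot (fun x y z => f y z x)
  have s0 := h.swp f
  have s1 := h.swp (fun x y z => f y z x)
  have s2 := h.swp (fun x y z => f z x y)
  have e : ∑ η, w η * S6 f (e η 0) (e η 1) (e η 2)
      = ∑ η, w η * f (e η 0) (e η 1) (e η 2) + ∑ η, w η * f (e η 1) (e η 2) (e η 0)
        + ∑ η, w η * f (e η 2) (e η 0) (e η 1) + ∑ η, w η * f (e η 0) (e η 2) (e η 1)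
        + ∑ η, w η * f (e η 2) (e η 1) (e η 0) + ∑ η, w η * f (e η 1) (e η 0) (e η 2) := by
    simp only [← Finset.sum_add_distrib]
    refine Finset.sum_congr rfl fun η _ => ?_
    unfold S6
    ring
  rw [e]
  linarith

theorem Good.ZZ_pos (h : Good w e) (lam : ℝ) (h0 : 0 ≤ lam) (h1 : 2 * lam ^ 2 ≤ 1) (p : ι × ι) :
    0 < ZZ lam e p := by
  have hl := lam_le lam h0 h1
  have hz : ∀ η, lam * e η 0 + lam * e η 1 + lam * e η 2 = 0 := by
    intro η
    have := h.zero η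
    calc lam * e η 0 + lam * e η 1 + lam * e η 2 = lam * (e η 0 + e η 1 + e η 2) := by ring
      _ = 0 := by rw [this, mul_zero]
  have hg : ∀ η i, -1 < lam * e η i := by
    intro η i
    have := h.ge η i
    nlinarith
  unfold ZZ
  exact Z3_pos _ _ _ _ _ _ (hz p.1) (hz p.2) (hg _ _) (hg _ _) (hg _ _) (hg _ _) (hg _ _) (hg _ _)

theorem Good.Xf_nonneg (h : Good w e) : 0 ≤ Xf w e := by
  unfold Xf
  exact Finset.sum_nonneg fun η _ => mul_nonneg (h.pos η).le (al3_nonneg _ _ _)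

/-- domain facts for the scaled deviations -/
theorem Good.dom (h : Good w e) (lam : ℝ) (h0 : 0 ≤ lam) (h1 : 2 * lam ^ 2 ≤ 1) (η : ι) :
    lam * e η 0 + lam * e η 1 + lam * e η 2 = 0 ∧ (∀ i, -(5 / 7) ≤ lam * e η i) ∧
      al3 (lam * e η 0) (lam * e η 1) (lam * e η 2) ≤ 1 / 2 := by
  have hl := lam_le lam h0 h1
  refine ⟨?_, ?_, ?_⟩
  · have := h.zero η
    calc lam * e η 0 + lam * e η 1 + lam * e η 2 = lam * (e η 0 + e η 1 + e η 2) := by ring
      _ = 0 := by rw [this, mul_zero]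
  · intro i
    have := h.ge η i
    nlinarith
  · rw [al3_smul]
    have h2 := al3_le_one (e η 0) (e η 1) (e η 2) (h.zero η) (h.ge η 0) (h.ge η 1) (h.ge η 2)
    have h3 := al3_nonneg (e η 0) (e η 1) (e η 2)
    nlinarith [sq_nonneg lam]

end Vale.Agent.P154
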