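import Vale.Agent.P154.FamSix

/-!
# P154: the combined experiment is again `Good`

Write `a = lam • e p.1`, `b = lam • e p.2`, `Z = ZZ lam e p > 0` (`Good.ZZ_pos`).
* `pos`: product of positives.
* `tot`: `∑ p, w p.1 w p.2 (1 + (lam^2/3) ∑ i, e p.1 i e p.2 i) = 1 + (lam^2/3) ∑ i (∑ η, w η e η i)^2` and `∑ η, w η e η i = 0`:
  by `rot` (with `f = fun x _ _ => x` etc.) the three means agree, and they add up to `∑ w η * 0 = 0`.
  (`Fintype.sum_prod_type`, `Finset.sum_mul_sum`.)
* `zero`: `∑ i (1 + a i)(1 + b i) = 3 Z` (uses the sum-zero conditions), `field_simp`.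
* `ge`: `(1 + a i)(1 + b i) / Z ≥ 0`.
* `rot`: for fixed `f`, the summand is `w η w η' G (e η) (e η')` with `G x y = Z3(lam x, lam y) * f (..)`. `G` is invariant under the
  simultaneous rotation of both arguments up to the rotation of the arguments of `f`.  Apply `h.rot` in the variable `η` (for fixed `η'`)
  and then in the variable `η'` (for fixed `η`).  `swp`: the same with `h.swp`.
-/

namespace Vale.Agent.P154

open Finset

variable {ι : Type} [Fintype ι] {w : ι → ℝ} {e : ι → Fin 3 → ℝ}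

/-- the three means vanish -/
theorem Good.mean_zero (h : Good w e) :
    (∑ η, w η * e η 0 = 0) ∧ (∑ η, w η * e η 1 = 0) ∧ (∑ η, w η * e η 2 = 0) := by
  have r1 : ∑ η, w η * e η 0 = ∑ η, w η * e η 1 := h.rot (fun x _ _ => x)
  have r2 : ∑ η, w η * e η 1 = ∑ η, w η * e η 2 := h.rot (fun _ y _ => y)
  have s : ∑ η, w η * e η 0 + ∑ η, w η * e η 1 + ∑ η, w η * e η 2 = 0 := by
    rw [← Finset.sum_add_distrib, ← Finset.sum_add_distrib]
    apply Finset.sum_eq_zero
    intro η _
    have := h.zero η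
    have e1 : w η * e η 0 + w η * e η 1 + w η * e η 2 = w η * (e η 0 + e η 1 + e η 2) := by ring
    rw [e1, this, mul_zero]
  refine ⟨?_, ?_, ?_⟩ <;> linarith

/-- simultaneous rotation in a double sum -/
theorem Good.rot2 (h : Good w e) (H : ℝ → ℝ → ℝ → ℝ → ℝ → ℝ → ℝ) :
    ∑ x, ∑ y, w x * w y * H (e x 0) (e x 1) (e x 2) (e y 0) (e y 1) (e y 2) =
      ∑ x, ∑ y, w x * w y * H (e x 1) (e x 2) (e x 0) (e y 1) (e y 2) (e y 0) := by
  calc ∑ x, ∑ y, w x * w y * H (e x 0) (e x 1) (e x 2) (e y 0) (e y 1) (e y 2)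
      = ∑ x, w x * ∑ y, w y * H (e x 0) (e x 1) (e x 2) (e y 0) (e y 1) (e y 2) := by
        apply Finset.sum_congr rfl
        intro x _
        rw [Finset.mul_sum]
        apply Finset.sum_congr rfl
        intro y _
        ring
    _ = ∑ x, w x * ∑ y, w y * H (e x 0) (e x 1) (e x 2) (e y 1) (e y 2) (e y 0) := by
        apply Finset.sum_congr rfl
        intro x _
        rw [h.rot (fun a b c => H (e x 0) (e x 1) (e x 2) a b c)]
    _ = ∑ y, w y * ∑ x, w x * H (e x 0) (e x 1) (e x 2) (e y 1) (e y 2) (e y 0) := by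
        simp only [Finset.mul_sum]
        rw [Finset.sum_comm]
        apply Finset.sum_congr rfl
        intro y _
        apply Finset.sum_congr rfl
        intro x _
        ring
    _ = ∑ y, w y * ∑ x, w x * H (e x 1) (e x 2) (e x 0) (e y 1) (e y 2) (e y 0) := by
        apply Finset.sum_congr rfl
        intro y _
        rw [h.rot (fun a b c => H a b c (e y 1) (e y 2) (e y 0))]
    _ = ∑ x, ∑ y, w x * w y * H (e x 1) (e x 2) (e x 0) (e y 1) (e y 2) (e y 0) := by
        simp only [Finset.mul_sum]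
        rw [Finset.sum_comm]
        apply Finset.sum_congr rfl
        intro y _
        apply Finset.sum_congr rfl
        intro x _
        ring

/-- simultaneous transposition in a double sum -/
theorem Good.swp2 (h : Good w e) (H : ℝ → ℝ → ℝ → ℝ → ℝ → ℝ → ℝ) :
    ∑ x, ∑ y, w x * w y * H (e x 0) (e x 1) (e x 2) (e y 0) (e y 1) (e y 2) =
      ∑ x, ∑ y, w x * w y * H (e x 0) (e x 2) (e x 1) (e y 0) (e y 2) (e y 1) := by
  calc ∑ x, ∑ y, w x * w y * H (e x 0) (e x 1) (e x 2) (e y 0) (e y 1) (e y 2)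
      = ∑ x, w x * ∑ y, w y * H (e x 0) (e x 1) (e x 2) (e y 0) (e y 1) (e y 2) := by
        apply Finset.sum_congr rfl
        intro x _
        rw [Finset.mul_sum]
        apply Finset.sum_congr rfl
        intro y _
        ring
    _ = ∑ x, w x * ∑ y, w y * H (e x 0) (e x 1) (e x 2) (e y 0) (e y 2) (e y 1) := by
        apply Finset.sum_congr rfl
        intro x _
        rw [h.swp (fun a b c => H (e x 0) (e x 1) (e x 2) a b c)]
    _ = ∑ y, w y * ∑ x, w x * H (e x 0) (e x 1) (e x 2) (e y 0) (e y 2) (e y 1) := by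
        simp only [Finset.mul_sum]
        rw [Finset.sum_comm]
        apply Finset.sum_congr rfl
        intro y _
        apply Finset.sum_congr rfl
        intro x _
        ring
    _ = ∑ y, w y * ∑ x, w x * H (e x 0) (e x 2) (e x 1) (e y 0) (e y 2) (e y 1) := by
        apply Finset.sum_congr rfl
        intro y _
        rw [h.swp (fun a b c => H a b c (e y 0) (e y 2) (e y 1))]
    _ = ∑ x, ∑ y, w x * w y * H (e x 0) (e x 2) (e x 1) (e y 0) (e y 2) (e y 1) := by
        simp only [Finset.mul_sum]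
        rw [Finset.sum_comm]
        apply Finset.sum_congr rfl
        intro y _
        apply Finset.sum_congr rfl
        intro x _
        ring

/-- the kernel of the combined experiment as a function of six real variables -/
noncomputable def stepKer (lam : ℝ) (f : ℝ → ℝ → ℝ → ℝ) (x0 x1 x2 y0 y1 y2 : ℝ) : ℝ :=
  Z3 (lam * x0) (lam * x1) (lam * x2) (lam * y0) (lam * y1) (lam * y2) *
    f ((1 + lam * x0) * (1 + lam * y0) /
          Z3 (lam * x0) (lam * x1) (lam * x2) (lam * y0) (lam * y1) (lam * y2) - 1)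
      ((1 + lam * x1) * (1 + lam * y1) /
          Z3 (lam * x0) (lam * x1) (lam * x2) (lam * y0) (lam * y1) (lam * y2) - 1)
      ((1 + lam * x2) * (1 + lam * y2) /
          Z3 (lam * x0) (lam * x1) (lam * x2) (lam * y0) (lam * y1) (lam * y2) - 1)

theorem Z3_rot (a0 a1 a2 b0 b1 b2 : ℝ) : Z3 a1 a2 a0 b1 b2 b0 = Z3 a0 a1 a2 b0 b1 b2 := by
  unfold Z3; ring

theorem Z3_swp (a0 a1 a2 b0 b1 b2 : ℝ) : Z3 a0 a2 a1 b0 b2 b1 = Z3 a0 a1 a2 b0 b1 b2 := by
  unfold Z3; ring

theorem sum_w2 (lam : ℝ) (w : ι → ℝ) (e : ι → Fin 3 → ℝ) (f : ℝ → ℝ → ℝ → ℝ) :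
    ∑ p, w2 lam w e p * f (e2 lam e p 0) (e2 lam e p 1) (e2 lam e p 2) =
      ∑ x, ∑ y, w x * w y * stepKer lam f (e x 0) (e x 1) (e x 2) (e y 0) (e y 1) (e y 2) := by
  rw [Fintype.sum_prod_type]
  apply Finset.sum_congr rfl
  intro x _
  apply Finset.sum_congr rfl
  intro y _
  simp only [w2, e2, ZZ, stepKer]
  ring

theorem Good.step (h : Good w e) (lam : ℝ) (h0 : 0 ≤ lam) (h1 : 2 * lam ^ 2 ≤ 1) :
    Good (w2 lam w e) (e2 lam e) := by
  have hZ := h.ZZ_pos lam h0 h1
  obtain ⟨m0, m1, m2⟩ := h.mean_zero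
  refine ⟨?_, ?_, ?_, ?_, ?_, ?_⟩
  · intro p
    unfold w2
    exact mul_pos (mul_pos (h.pos _) (h.pos _)) (hZ p)
  · rw [Fintype.sum_prod_type]
    have key : ∑ x, ∑ y, w2 lam w e (x, y) =
        (∑ x, w x) * (∑ y, w y) + lam ^ 2 / 3 *
          ((∑ x, w x * e x 0) * (∑ y, w y * e y 0) + (∑ x, w x * e x 1) * (∑ y, w y * e y 1)
            + (∑ x, w x * e x 2) * (∑ y, w y * e y 2)) := by
      rw [Finset.sum_mul_sum, Finset.sum_mul_sum, Finset.sum_mul_sum, Finset.sum_mul_sum,
        ← Finset.sum_add_distrib, ← Finset.sum_add_distrib, Finset.mul_sum,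
        ← Finset.sum_add_distrib]
      apply Finset.sum_congr rfl
      intro x _
      rw [← Finset.sum_add_distrib, ← Finset.sum_add_distrib, Finset.mul_sum,
        ← Finset.sum_add_distrib]
      apply Finset.sum_congr rfl
      intro y _
      simp only [w2, ZZ, Z3]
      ring
    rw [key, h.tot, m0, m1, m2]
    ring
  · intro p
    have hp := hZ p
    have z1 := h.zero p.1
    have z2 := h.zero p.2
    have e3 : (1 + lam * e p.1 0) * (1 + lam * e p.2 0) + (1 + lam * e p.1 1) * (1 + lam * e p.2 1)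
        + (1 + lam * e p.1 2) * (1 + lam * e p.2 2) = 3 * ZZ lam e p := by
      simp only [ZZ, Z3]
      have a1 : e p.1 2 = - e p.1 0 - e p.1 1 := by linarith
      have a2 : e p.2 2 = - e p.2 0 - e p.2 1 := by linarith
      rw [a1, a2]
      ring
    simp only [e2]
    have : (1 + lam * e p.1 0) * (1 + lam * e p.2 0) / ZZ lam e p - 1
        + ((1 + lam * e p.1 1) * (1 + lam * e p.2 1) / ZZ lam e p - 1)
        + ((1 + lam * e p.1 2) * (1 + lam * e p.2 2) / ZZ lam e p - 1)
        = ((1 + lam * e p.1 0) * (1 + lam * e p.2 0) + (1 + lam * e p.1 1) * (1 + lam * e p.2 1)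
        + (1 + lam * e p.1 2) * (1 + lam * e p.2 2)) / ZZ lam e p - 3 := by ring
    rw [this, e3]
    field_simp
    ring
  · intro p i
    have hp := hZ p
    have d1 := (h.dom lam h0 h1 p.1).2.1 i
    have d2 := (h.dom lam h0 h1 p.2).2.1 i
    simp only [e2]
    have : 0 ≤ (1 + lam * e p.1 i) * (1 + lam * e p.2 i) / ZZ lam e p := by
      apply div_nonneg _ hp.le
      apply mul_nonneg <;> linarith
    linarith
  · intro f
    rw [sum_w2, sum_w2 lam w e (fun a b c => f b c a), h.rot2]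
    apply Finset.sum_congr rfl
    intro x _
    apply Finset.sum_congr rfl
    intro y _
    simp only [stepKer, Z3_rot]
  · intro f
    rw [sum_w2, sum_w2 lam w e (fun a b c => f a c b), h.swp2]
    apply Finset.sum_congr rfl
    intro x _
    apply Finset.sum_congr rfl
    intro y _
    simp only [stepKer, Z3_swp]

end Vale.Agent.P154
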