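import Vale.Agent.P154.Dom

/-!
# P154: the polynomial inequality behind the `t`-inequality

`Pt al be (al x) (be y) = al be qt` where `qt` is affine in each of `al, x, be, y`, and `qt > 0` at the 16 vertices of
the box `al, be ∈ [0, 1/2]`, `x, y ∈ [-5/14, 5/7]` (minimum `9/28`).  Without division: put
`s1 = (A + 5/14 al) (1/2 - al)`, `s2 = (A + 5/14 al) al`, `s3 = (5/7 al - A) (1/2 - al)`, `s4 = (5/7 al - A) al` (all `≥ 0`), and
the same `r1 .. r4` for `(be, B)`.  Then `Pt` is a combination of the 16 products `s_k r_l` with the nonnegative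
coefficients `qt(vertex) / ((15/14)^2 (1/2)^2)`, where the vertex values are (x-vertex, al-vertex | y-vertex, be-vertex):
 x=5/7,al=0 | y=5/7,be=0 : 9/28;  x=5/7,al=0 | y=5/7,be=1/2 : 5/8;  x=5/7,al=0 | y=-5/14,be=0 : 27/14;
 x=5/7,al=0 | y=-5/14,be=1/2 : 25/28;  x=5/7,al=1/2 | y=5/7,be=1/2 : 1627/784;  x=5/7,al=1/2 | y=-5/14,be=0 : 10/7;
 x=5/7,al=1/2 | y=-5/14,be=1/2 : 127/49;  x=-5/14,al=0 | y=-5/14,be=0 : 423/56;  x=-5/14,al=0 | y=-5/14,be=1/2 : 40/7;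
 x=-5/14,al=1/2 | y=-5/14,be=1/2 : 839/98  (and symmetric ones).  `nlinarith` with the 16 products should do.
-/

namespace Vale.Agent.P154

theorem polyT_nonneg (al be A B : ℝ) (ha0 : 0 ≤ al) (ha1 : al ≤ 1 / 2) (ha2 : -(5 / 14) * al ≤ A)
    (ha3 : A ≤ 5 / 7 * al) (hb0 : 0 ≤ be) (hb1 : be ≤ 1 / 2) (hb2 : -(5 / 14) * be ≤ B)
    (hb3 : B ≤ 5 / 7 * be) : 0 ≤ Pt al be A B := by
  have s1 : 0 ≤ (A + 5 / 14 * al) * (1 / 2 - al) := mul_nonneg (by linarith) (by linarith)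
  have s2 : 0 ≤ (A + 5 / 14 * al) * al := mul_nonneg (by linarith) ha0
  have s3 : 0 ≤ (5 / 7 * al - A) * (1 / 2 - al) := mul_nonneg (by linarith) (by linarith)
  have s4 : 0 ≤ (5 / 7 * al - A) * al := mul_nonneg (by linarith) ha0
  have r1 : 0 ≤ (B + 5 / 14 * be) * (1 / 2 - be) := mul_nonneg (by linarith) (by linarith)
  have r2 : 0 ≤ (B + 5 / 14 * be) * be := mul_nonneg (by linarith) hb0
  have r3 : 0 ≤ (5 / 7 * be - B) * (1 / 2 - be) := mul_nonneg (by linarith) (by linarith)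
  have r4 : 0 ≤ (5 / 7 * be - B) * be := mul_nonneg (by linarith) hb0
  have key : ∀ S1 S2 S3 S4 R1 R2 R3 R4 : ℝ, 0 ≤ S1 → 0 ≤ S2 → 0 ≤ S3 → 0 ≤ S4 → 0 ≤ R1 → 0 ≤ R2 →
      0 ≤ R3 → 0 ≤ R4 →
      0 ≤ 28 / 25 * (S1 * R1) + 98 / 45 * (S1 * R2) + 168 / 25 * (S1 * R3) + 28 / 9 * (S1 * R4)
        + 98 / 45 * (S2 * R1) + 1627 / 225 * (S2 * R2) + 224 / 45 * (S2 * R3)
        + 2032 / 225 * (S2 * R4) + 168 / 25 * (S3 * R1) + 224 / 45 * (S3 * R2)
        + 658 / 25 * (S3 * R3) + 896 / 45 * (S3 * R4) + 28 / 9 * (S4 * R1)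
        + 2032 / 225 * (S4 * R2) + 896 / 45 * (S4 * R3) + 6712 / 225 * (S4 * R4) := by
    intro S1 S2 S3 S4 R1 R2 R3 R4 h1 h2 h3 h4 k1 k2 k3 k4
    positivity
  have h := key _ _ _ _ _ _ _ _ s1 s2 s3 s4 r1 r2 r3 r4
  have e : Pt al be A B
      = 28 / 25 * (((A + 5 / 14 * al) * (1 / 2 - al)) * ((B + 5 / 14 * be) * (1 / 2 - be)))
        + 98 / 45 * (((A + 5 / 14 * al) * (1 / 2 - al)) * ((B + 5 / 14 * be) * be))
        + 168 / 25 * (((A + 5 / 14 * al) * (1 / 2 - al)) * ((5 / 7 * be - B) * (1 / 2 - be)))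
        + 28 / 9 * (((A + 5 / 14 * al) * (1 / 2 - al)) * ((5 / 7 * be - B) * be))
        + 98 / 45 * (((A + 5 / 14 * al) * al) * ((B + 5 / 14 * be) * (1 / 2 - be)))
        + 1627 / 225 * (((A + 5 / 14 * al) * al) * ((B + 5 / 14 * be) * be))
        + 224 / 45 * (((A + 5 / 14 * al) * al) * ((5 / 7 * be - B) * (1 / 2 - be)))
        + 2032 / 225 * (((A + 5 / 14 * al) * al) * ((5 / 7 * be - B) * be))
        + 168 / 25 * (((5 / 7 * al - A) * (1 / 2 - al)) * ((B + 5 / 14 * be) * (1 / 2 - be)))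
        + 224 / 45 * (((5 / 7 * al - A) * (1 / 2 - al)) * ((B + 5 / 14 * be) * be))
        + 658 / 25 * (((5 / 7 * al - A) * (1 / 2 - al)) * ((5 / 7 * be - B) * (1 / 2 - be)))
        + 896 / 45 * (((5 / 7 * al - A) * (1 / 2 - al)) * ((5 / 7 * be - B) * be))
        + 28 / 9 * (((5 / 7 * al - A) * al) * ((B + 5 / 14 * be) * (1 / 2 - be)))
        + 2032 / 225 * (((5 / 7 * al - A) * al) * ((B + 5 / 14 * be) * be))
        + 896 / 45 * (((5 / 7 * al - A) * al) * ((5 / 7 * be - B) * (1 / 2 - be)))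
        + 6712 / 225 * (((5 / 7 * al - A) * al) * ((5 / 7 * be - B) * be)) := by
    unfold Pt
    ring
  rw [e]
  exact h

end Vale.Agent.P154
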