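import Vale.Agent.P154.EllSum
import Vale.Agent.P154.PolyT

/-!
# P154: the `t`-inequality (pointwise, averaged over the six permutations)

`S6 (K3 a) b ≥ S6 (ell a) b` termwise by `K3_ge` (each permutation of `b` satisfies the hypotheses; `al3` is symmetric),
then `ell_sum` and `polyT_nonneg` (hypotheses from `al3_nonneg`, `cu3_sq_le`, `tri`, `A_le`, `A_ge`).
-/

namespace Vale.Agent.P154

theorem key_t (a0 a1 a2 b0 b1 b2 : ℝ) (ha : a0 + a1 + a2 = 0) (hb : b0 + b1 + b2 = 0)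
    (ha0 : -(5 / 7) ≤ a0) (ha1 : -(5 / 7) ≤ a1) (ha2 : -(5 / 7) ≤ a2)
    (hb0 : -(5 / 7) ≤ b0) (hb1 : -(5 / 7) ≤ b1) (hb2 : -(5 / 7) ≤ b2)
    (hal : al3 a0 a1 a2 ≤ 1 / 2) (hbe : al3 b0 b1 b2 ≤ 1 / 2) :
    6 * ((1 - 2 * al3 b0 b1 b2) * cu3 a0 a1 a2 + (1 - 2 * al3 a0 a1 a2) * cu3 b0 b1 b2) ≤
      S6 (K3 a0 a1 a2) b0 b1 b2 := by
  have ga0 : -1 < a0 := by linarith
  have ga1 : -1 < a1 := by linarith
  have ga2 : -1 < a2 := by linarith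
  have gb0 : -1 < b0 := by linarith
  have gb1 : -1 < b1 := by linarith
  have gb2 : -1 < b2 := by linarith
  have s2 : al3 b1 b2 b0 = al3 b0 b1 b2 := by unfold al3; ring
  have s3 : al3 b2 b0 b1 = al3 b0 b1 b2 := by unfold al3; ring
  have s4 : al3 b0 b2 b1 = al3 b0 b1 b2 := by unfold al3; ring
  have s5 : al3 b2 b1 b0 = al3 b0 b1 b2 := by unfold al3; ring
  have s6 : al3 b1 b0 b2 = al3 b0 b1 b2 := by unfold al3; ring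
  have k1 := K3_ge a0 a1 a2 b0 b1 b2 ha hb ga0 ga1 ga2 gb0 gb1 gb2 hal hbe
  have k2 := K3_ge a0 a1 a2 b1 b2 b0 ha (by linarith) ga0 ga1 ga2 gb1 gb2 gb0 hal (by rw [s2]; exact hbe)
  have k3 := K3_ge a0 a1 a2 b2 b0 b1 ha (by linarith) ga0 ga1 ga2 gb2 gb0 gb1 hal (by rw [s3]; exact hbe)
  have k4 := K3_ge a0 a1 a2 b0 b2 b1 ha (by linarith) ga0 ga1 ga2 gb0 gb2 gb1 hal (by rw [s4]; exact hbe)
  have k5 := K3_ge a0 a1 a2 b2 b1 b0 ha (by linarith) ga0 ga1 ga2 gb2 gb1 gb0 hal (by rw [s5]; exact hbe)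
  have k6 := K3_ge a0 a1 a2 b1 b0 b2 ha (by linarith) ga0 ga1 ga2 gb1 gb0 gb2 hal (by rw [s6]; exact hbe)
  have hle : S6 (ell a0 a1 a2) b0 b1 b2 ≤ S6 (K3 a0 a1 a2) b0 b1 b2 := by
    unfold S6
    linarith
  have hs := ell_sum a0 a1 a2 b0 b1 b2 ha hb
  have hA0 := al3_nonneg a0 a1 a2
  have hB0 := al3_nonneg b0 b1 b2
  have hA2 := cu3_sq_le a0 a1 a2 ha
  have hB2 := cu3_sq_le b0 b1 b2 hb
  have hA3 := tri a0 a1 a2 ha ha0 ha1 ha2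
  have hB3 := tri b0 b1 b2 hb hb0 hb1 hb2
  have hP := polyT_nonneg (al3 a0 a1 a2) (al3 b0 b1 b2) (cu3 a0 a1 a2) (cu3 b0 b1 b2)
    hA0 hal (A_ge _ _ hA0 hal hA2 hA3) (A_le _ _ hA0 hal hA2)
    hB0 hbe (A_ge _ _ hB0 hbe hB2 hB3) (A_le _ _ hB0 hbe hB2)
  linarith

end Vale.Agent.P154
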