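import Vale.Agent.P154.FamSix
import Vale.Agent.P154.KeyT

/-!
# P154: one step of the recursion for `Tf`

Write `a = lam • e η`, `b = lam • e η'`.  `Tf (w2) (e2) = ∑ η η', w η w η' K3 a b` (definitional unfolding of `K3`, `Fintype.sum_prod_type`).
For fixed `η`, by `Good.six` applied to `f = fun x y z => K3 a0 a1 a2 (lam * x) (lam * y) (lam * z)`,
`∑ η', w η' K3 a b = (1/6) ∑ η', w η' S6 (K3 a) b`; apply `key_t` (hypotheses from `Good.dom`); then sum, using
`∑ w = 1`, `al3_smul`, `cu3_smul`:  `Tf' ≥ 2 (∑ w η (1 - 2 al3 (lam e η))) lam^3 T ≥ 0`  since `al3 (lam e η) ≤ 1/2`.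
-/

namespace Vale.Agent.P154

open Finset

variable {ι : Type} [Fintype ι] {w : ι → ℝ} {e : ι → Fin 3 → ℝ}

theorem Tf_step_eq (lam : ℝ) (w : ι → ℝ) (e : ι → Fin 3 → ℝ) :
    Tf (w2 lam w e) (e2 lam e) =
      ∑ x, w x * ∑ y, w y * K3 (lam * e x 0) (lam * e x 1) (lam * e x 2)
        (lam * e y 0) (lam * e y 1) (lam * e y 2) := by
  unfold Tf
  rw [Fintype.sum_prod_type]
  apply Finset.sum_congr rfl
  intro x _
  rw [Finset.mul_sum]
  apply Finset.sum_congr rfl
  intro y _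
  simp only [w2, e2, ZZ, K3]
  ring

theorem Good.T_inner (h : Good w e) (lam : ℝ) (h0 : 0 ≤ lam) (h1 : 2 * lam ^ 2 ≤ 1) (x : ι) :
    ∑ y, w y * ((1 - 2 * al3 (lam * e y 0) (lam * e y 1) (lam * e y 2)) *
          cu3 (lam * e x 0) (lam * e x 1) (lam * e x 2)
        + (1 - 2 * al3 (lam * e x 0) (lam * e x 1) (lam * e x 2)) *
          cu3 (lam * e y 0) (lam * e y 1) (lam * e y 2)) ≤
      ∑ y, w y * K3 (lam * e x 0) (lam * e x 1) (lam * e x 2)
        (lam * e y 0) (lam * e y 1) (lam * e y 2) := by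
  have six := h.six (fun u v t => K3 (lam * e x 0) (lam * e x 1) (lam * e x 2)
        (lam * u) (lam * v) (lam * t))
  rw [six, Finset.mul_sum]
  apply Finset.sum_le_sum
  intro y _
  obtain ⟨ax, bx, cx⟩ := h.dom lam h0 h1 x
  obtain ⟨ay, by', cy⟩ := h.dom lam h0 h1 y
  have k := key_t (lam * e x 0) (lam * e x 1) (lam * e x 2)
        (lam * e y 0) (lam * e y 1) (lam * e y 2) ax ay (bx 0) (bx 1) (bx 2) (by' 0) (by' 1) (by' 2)
        cx cy
  have hs : S6 (fun u v t => K3 (lam * e x 0) (lam * e x 1) (lam * e x 2)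
        (lam * u) (lam * v) (lam * t)) (e y 0) (e y 1) (e y 2) =
      S6 (K3 (lam * e x 0) (lam * e x 1) (lam * e x 2))
        (lam * e y 0) (lam * e y 1) (lam * e y 2) := rfl
  rw [hs]
  have hw := (h.pos y).le
  have := mul_le_mul_of_nonneg_left k hw
  linarith

theorem Good.T_step (h : Good w e) (lam : ℝ) (h0 : 0 ≤ lam) (h1 : 2 * lam ^ 2 ≤ 1)
    (hT : 0 ≤ Tf w e) : 0 ≤ Tf (w2 lam w e) (e2 lam e) := by
  rw [Tf_step_eq]
  have hC : 0 ≤ ∑ y, w y * (1 - 2 * al3 (lam * e y 0) (lam * e y 1) (lam * e y 2)) := by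
    apply Finset.sum_nonneg
    intro y _
    have := (h.dom lam h0 h1 y).2.2
    exact mul_nonneg (h.pos y).le (by linarith)
  have hD : ∑ y, w y * cu3 (lam * e y 0) (lam * e y 1) (lam * e y 2) = lam ^ 3 * Tf w e := by
    unfold Tf
    rw [Finset.mul_sum]
    apply Finset.sum_congr rfl
    intro y _
    rw [cu3_smul]
    ring
  have low : 2 * ((∑ y, w y * (1 - 2 * al3 (lam * e y 0) (lam * e y 1) (lam * e y 2))) *
      (∑ y, w y * cu3 (lam * e y 0) (lam * e y 1) (lam * e y 2))) =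
      ∑ x, w x * ∑ y, w y * ((1 - 2 * al3 (lam * e y 0) (lam * e y 1) (lam * e y 2)) *
          cu3 (lam * e x 0) (lam * e x 1) (lam * e x 2)
        + (1 - 2 * al3 (lam * e x 0) (lam * e x 1) (lam * e x 2)) *
          cu3 (lam * e y 0) (lam * e y 1) (lam * e y 2)) := by
    have s1 : ∑ x, w x * ∑ y, w y * ((1 - 2 * al3 (lam * e y 0) (lam * e y 1) (lam * e y 2)) *
          cu3 (lam * e x 0) (lam * e x 1) (lam * e x 2)
        + (1 - 2 * al3 (lam * e x 0) (lam * e x 1) (lam * e x 2)) *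
          cu3 (lam * e y 0) (lam * e y 1) (lam * e y 2)) =
        ∑ x, ((w x * cu3 (lam * e x 0) (lam * e x 1) (lam * e x 2)) *
            (∑ y, w y * (1 - 2 * al3 (lam * e y 0) (lam * e y 1) (lam * e y 2)))
          + (w x * (1 - 2 * al3 (lam * e x 0) (lam * e x 1) (lam * e x 2))) *
            (∑ y, w y * cu3 (lam * e y 0) (lam * e y 1) (lam * e y 2))) := by
      apply Finset.sum_congr rfl
      intro x _
      rw [Finset.mul_sum, Finset.mul_sum, Finset.mul_sum, ← Finset.sum_add_distrib]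
      apply Finset.sum_congr rfl
      intro y _
      ring
    rw [s1, Finset.sum_add_distrib, ← Finset.sum_mul, ← Finset.sum_mul]
    ring
  have step : ∑ x, w x * ∑ y, w y * ((1 - 2 * al3 (lam * e y 0) (lam * e y 1) (lam * e y 2)) *
          cu3 (lam * e x 0) (lam * e x 1) (lam * e x 2)
        + (1 - 2 * al3 (lam * e x 0) (lam * e x 1) (lam * e x 2)) *
          cu3 (lam * e y 0) (lam * e y 1) (lam * e y 2)) ≤
      ∑ x, w x * ∑ y, w y * K3 (lam * e x 0) (lam * e x 1) (lam * e x 2)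
        (lam * e y 0) (lam * e y 1) (lam * e y 2) := by
    apply Finset.sum_le_sum
    intro x _
    exact mul_le_mul_of_nonneg_left (h.T_inner lam h0 h1 x) (h.pos x).le
  refine le_trans ?_ step
  rw [← low, hD]
  have : 0 ≤ lam ^ 3 * Tf w e := mul_nonneg (pow_nonneg h0 3) hT
  exact mul_nonneg (by norm_num) (mul_nonneg hC this)

end Vale.Agent.P154
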