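import Vale.Agent.P154.Fam

/-!
# P154: total variation is controlled by the second moment
-/

namespace Vale.Agent.P154

open Finset

variable {ι : Type} [Fintype ι] {w : ι → ℝ} {e : ι → Fin 3 → ℝ}

/-- Total variation is controlled by `Xf`:  Jensen and Cauchy-Schwarz,
`(∑ w (1/6) ∑ |e i|)^2 ≤ ∑ w ((1/6) ∑ |e i|)^2 ≤ ∑ w (1/12) ∑ (e i)^2 = Xf / 2`. -/
theorem Good.tv_sq_le (h : Good w e) :
    (∑ η, w η * ((1 / 6) * (|e η 0| + |e η 1| + |e η 2|))) ^ 2 ≤ Xf w e / 2 := by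
  set g : ι → ℝ := fun η => (1 / 6) * (|e η 0| + |e η 1| + |e η 2|) with hg
  set m : ℝ := ∑ η, w η * g η with hm
  have h1 : 0 ≤ ∑ η, w η * (g η - m) ^ 2 :=
    Finset.sum_nonneg (fun η _ => mul_nonneg (h.pos η).le (sq_nonneg _))
  have h2 : ∑ η, w η * (g η - m) ^ 2 = ∑ η, w η * g η ^ 2 - m ^ 2 := by
    have e1 : ∀ η, w η * (g η - m) ^ 2 = w η * g η ^ 2 - 2 * m * (w η * g η) + m ^ 2 * w η := by
      intro η
      ring
    rw [Finset.sum_congr rfl (fun η _ => e1 η), Finset.sum_add_distrib, Finset.sum_sub_distrib,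
      ← Finset.mul_sum, ← Finset.mul_sum, h.tot, ← hm]
    ring
  have h3 : ∑ η, w η * g η ^ 2 ≤ Xf w e / 2 := by
    unfold Xf
    rw [Finset.sum_div]
    refine Finset.sum_le_sum (fun η _ => ?_)
    have k : g η ^ 2 ≤ al3 (e η 0) (e η 1) (e η 2) / 2 := by
      simp only [hg]
      unfold al3
      have a0 := sq_abs (e η 0)
      have a1 := sq_abs (e η 1)
      have a2 := sq_abs (e η 2)
      nlinarith [sq_nonneg (|e η 0| - |e η 1|), sq_nonneg (|e η 1| - |e η 2|),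
        sq_nonneg (|e η 0| - |e η 2|)]
    have := mul_le_mul_of_nonneg_left k (h.pos η).le
    calc w η * g η ^ 2 ≤ w η * (al3 (e η 0) (e η 1) (e η 2) / 2) := this
      _ = w η * al3 (e η 0) (e η 1) (e η 2) / 2 := by ring
  linarith

end Vale.Agent.P154
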