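import Vale.Agent.P154.Dom

/-!
# P154: the polynomial inequality behind the `x`-inequality

With `A = al * x`, `B = be * y` one has `Rx * DF - NumF = al * be * q1 al x be y`, and `q1` is affine in
`al` and in `be`.  Put `ex = 15/7 - 2 x`, `ey = 15/7 - 2 y`, `Ta = 125/343 - al * ex ≥ 0`, `Tb = 125/343 - be * ey ≥ 0`,
`u10 = -2 - 2 y + 2 x y`, `u11 = 23/20 + 9/2 (x+y) - 61/10 x y - 3 x y (x+y) + 4 x^2 y^2`.  Then (ring identity)
`ex * ey * q1 = EE x y + Ta * ey * (-(u10 + u11 * be)) + Tb * GG y x`.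
`EE ≥ 0`, `GG ≥ 0` on the square `[-5/14, 5/7]^2`; `u10 < 0`; if `u11 ≤ 0` then `u10 + u11 be ≤ 0`, otherwise
`ey * (u10 + u11 be) ≤ ey u10 + (125/343) u11 = - GG x y ≤ 0`.
-/

namespace Vale.Agent.P154

noncomputable def q1 (al x be y : ℝ) : ℝ :=
  19 / 20 + (x + y) / 2 - 2 * (al + be) - 2 * (x * be + al * y) + 2 * x * y * (al + be)
    + al * be * (23 / 20 + 9 / 2 * (x + y) - 61 / 10 * x * y - 3 * x * y * (x + y) + 4 * x ^ 2 * y ^ 2)

noncomputable def EE (x y : ℝ) : ℝ :=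
  327365 / 235298 - 301649 / 235298 * (x + y) - 235 / 343 * (x ^ 2 + y ^ 2) + 2150437 / 1176490 * x * y
    + 16923 / 117649 * (x * y ^ 2 + x ^ 2 * y) + 62500 / 117649 * x ^ 2 * y ^ 2

noncomputable def GG (x y : ℝ) : ℝ :=
  5305 / 1372 - 929 / 686 * y - 4 * y ^ 2 - 1125 / 686 * x - 1415 / 686 * x * y + 1747 / 343 * x * y ^ 2
    + 375 / 343 * x ^ 2 * y - 500 / 343 * x ^ 2 * y ^ 2

theorem GG_nonneg (x y : ℝ) (hx0 : -(5 / 14) ≤ x) (hx1 : x ≤ 5 / 7) (hy0 : -(5 / 14) ≤ y)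
    (hy1 : y ≤ 5 / 7) : 0 ≤ GG x y := by
  unfold GG
  nlinarith [mul_nonneg (sub_nonneg.2 hx0) (sub_nonneg.2 hx1), mul_nonneg (sub_nonneg.2 hy0) (sub_nonneg.2 hy1),
    mul_nonneg (sub_nonneg.2 hx0) (sub_nonneg.2 hy0), mul_nonneg (sub_nonneg.2 hx1) (sub_nonneg.2 hy1),
    mul_nonneg (sub_nonneg.2 hx0) (sub_nonneg.2 hy1), mul_nonneg (sub_nonneg.2 hx1) (sub_nonneg.2 hy0),
    mul_nonneg (mul_nonneg (sub_nonneg.2 hx0) (sub_nonneg.2 hx1)) (mul_nonneg (sub_nonneg.2 hy0) (sub_nonneg.2 hy1)),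
    mul_nonneg (mul_nonneg (sub_nonneg.2 hx0) (sub_nonneg.2 hx1)) (sub_nonneg.2 hy0),
    mul_nonneg (mul_nonneg (sub_nonneg.2 hx0) (sub_nonneg.2 hx1)) (sub_nonneg.2 hy1),
    mul_nonneg (mul_nonneg (sub_nonneg.2 hy0) (sub_nonneg.2 hy1)) (sub_nonneg.2 hx0),
    mul_nonneg (mul_nonneg (sub_nonneg.2 hy0) (sub_nonneg.2 hy1)) (sub_nonneg.2 hx1)]

theorem EE_nonneg (x y : ℝ) (hx0 : -(5 / 14) ≤ x) (hx1 : x ≤ 5 / 7) (hy0 : -(5 / 14) ≤ y)
    (hy1 : y ≤ 5 / 7) : 0 ≤ EE x y := by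
  unfold EE
  nlinarith [mul_nonneg (sub_nonneg.2 hx0) (sub_nonneg.2 hx1), mul_nonneg (sub_nonneg.2 hy0) (sub_nonneg.2 hy1),
    mul_nonneg (sub_nonneg.2 hx0) (sub_nonneg.2 hy0), mul_nonneg (sub_nonneg.2 hx1) (sub_nonneg.2 hy1),
    mul_nonneg (sub_nonneg.2 hx0) (sub_nonneg.2 hy1), mul_nonneg (sub_nonneg.2 hx1) (sub_nonneg.2 hy0),
    mul_nonneg (mul_nonneg (sub_nonneg.2 hx0) (sub_nonneg.2 hx1)) (mul_nonneg (sub_nonneg.2 hy0) (sub_nonneg.2 hy1)),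
    mul_nonneg (mul_nonneg (sub_nonneg.2 hx0) (sub_nonneg.2 hx1)) (sub_nonneg.2 hy0),
    mul_nonneg (mul_nonneg (sub_nonneg.2 hx0) (sub_nonneg.2 hx1)) (sub_nonneg.2 hy1),
    mul_nonneg (mul_nonneg (sub_nonneg.2 hy0) (sub_nonneg.2 hy1)) (sub_nonneg.2 hx0),
    mul_nonneg (mul_nonneg (sub_nonneg.2 hy0) (sub_nonneg.2 hy1)) (sub_nonneg.2 hx1), sq_nonneg (x - y),
    sq_nonneg (x + y), sq_nonneg (x * y)]

theorem q1_id (al x be y : ℝ) :
    (15 / 7 - 2 * x) * (15 / 7 - 2 * y) * q1 al x be y =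
      EE x y
      + (125 / 343 - al * (15 / 7 - 2 * x)) * (15 / 7 - 2 * y) *
          (-((-2 - 2 * y + 2 * x * y) +
            (23 / 20 + 9 / 2 * (x + y) - 61 / 10 * x * y - 3 * x * y * (x + y) + 4 * x ^ 2 * y ^ 2) * be))
      + (125 / 343 - be * (15 / 7 - 2 * y)) * GG y x := by
  unfold q1 EE GG
  ring

theorem q1_nonneg (al x be y : ℝ) (hx0 : -(5 / 14) ≤ x) (hx1 : x ≤ 5 / 7) (hy0 : -(5 / 14) ≤ y)
    (hy1 : y ≤ 5 / 7) (ha0 : 0 ≤ al) (hb0 : 0 ≤ be) (hTa : al * (15 / 7 - 2 * x) ≤ 125 / 343)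
    (hTb : be * (15 / 7 - 2 * y) ≤ 125 / 343) : 0 ≤ q1 al x be y := by
  have hex : 0 < 15 / 7 - 2 * x := by linarith
  have hey : 0 < 15 / 7 - 2 * y := by linarith
  have hE := EE_nonneg x y hx0 hx1 hy0 hy1
  have hG1 := GG_nonneg x y hx0 hx1 hy0 hy1
  have hG2 := GG_nonneg y x hy0 hy1 hx0 hx1
  have hid := q1_id al x be y
  have hTa' : 0 ≤ 125 / 343 - al * (15 / 7 - 2 * x) := by linarith
  have hTb' : 0 ≤ 125 / 343 - be * (15 / 7 - 2 * y) := by linarith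
  have hu10 : -2 - 2 * y + 2 * x * y ≤ 0 := by
    nlinarith [mul_nonneg (sub_nonneg.2 hx0) (sub_nonneg.2 hy0), mul_nonneg (sub_nonneg.2 hx1) (sub_nonneg.2 hy0),
      mul_nonneg (sub_nonneg.2 hx0) (sub_nonneg.2 hy1), mul_nonneg (sub_nonneg.2 hx1) (sub_nonneg.2 hy1)]
  have key : 0 ≤ (15 / 7 - 2 * y) *
          (-((-2 - 2 * y + 2 * x * y) +
            (23 / 20 + 9 / 2 * (x + y) - 61 / 10 * x * y - 3 * x * y * (x + y) + 4 * x ^ 2 * y ^ 2) * be)) := by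
    rcases le_total (23 / 20 + 9 / 2 * (x + y) - 61 / 10 * x * y - 3 * x * y * (x + y) + 4 * x ^ 2 * y ^ 2) 0
      with h | h
    · apply mul_nonneg hey.le
      have : (23 / 20 + 9 / 2 * (x + y) - 61 / 10 * x * y - 3 * x * y * (x + y) + 4 * x ^ 2 * y ^ 2) * be ≤ 0 :=
        mul_nonpos_of_nonpos_of_nonneg h hb0
      linarith
    · have h1 : (23 / 20 + 9 / 2 * (x + y) - 61 / 10 * x * y - 3 * x * y * (x + y) + 4 * x ^ 2 * y ^ 2)
          * (be * (15 / 7 - 2 * y)) ≤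
          (23 / 20 + 9 / 2 * (x + y) - 61 / 10 * x * y - 3 * x * y * (x + y) + 4 * x ^ 2 * y ^ 2)
          * (125 / 343) := mul_le_mul_of_nonneg_left hTb h
      have h2 : (15 / 7 - 2 * y) * (-2 - 2 * y + 2 * x * y) +
          (23 / 20 + 9 / 2 * (x + y) - 61 / 10 * x * y - 3 * x * y * (x + y) + 4 * x ^ 2 * y ^ 2)
          * (125 / 343) = - GG x y := by
        unfold GG
        ring
      have h3 : (15 / 7 - 2 * y) *
          (-((-2 - 2 * y + 2 * x * y) +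
            (23 / 20 + 9 / 2 * (x + y) - 61 / 10 * x * y - 3 * x * y * (x + y) + 4 * x ^ 2 * y ^ 2) * be))
          = -((15 / 7 - 2 * y) * (-2 - 2 * y + 2 * x * y)) -
          (23 / 20 + 9 / 2 * (x + y) - 61 / 10 * x * y - 3 * x * y * (x + y) + 4 * x ^ 2 * y ^ 2)
          * (be * (15 / 7 - 2 * y)) := by ring
      rw [h3]
      linarith
  have h4 : 0 ≤ (125 / 343 - al * (15 / 7 - 2 * x)) * ((15 / 7 - 2 * y) *
          (-((-2 - 2 * y + 2 * x * y) +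
            (23 / 20 + 9 / 2 * (x + y) - 61 / 10 * x * y - 3 * x * y * (x + y) + 4 * x ^ 2 * y ^ 2) * be))) :=
    mul_nonneg hTa' key
  have h5 : 0 ≤ (125 / 343 - be * (15 / 7 - 2 * y)) * GG y x := mul_nonneg hTb' hG2
  have h6 : 0 ≤ (15 / 7 - 2 * x) * (15 / 7 - 2 * y) * q1 al x be y := by
    rw [hid]
    rw [mul_assoc (125 / 343 - al * (15 / 7 - 2 * x))]
    linarith
  exact nonneg_of_mul_nonneg_right h6 (mul_pos hex hey)

theorem P_eq (al x be y : ℝ) :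
    Rx al be (al * x) (be * y) * DF al be (al * x * (be * y))
      - NumF al be (al * x) (be * y) (al * x * (be * y)) = al * be * q1 al x be y := by
  unfold Rx DF NumF q1
  ring

/-- The main polynomial inequality. -/
theorem polyX_nonneg (al be A B : ℝ) (ha0 : 0 ≤ al) (ha1 : al ≤ 1 / 2) (ha2 : A ^ 2 ≤ al ^ 3)
    (ha3 : 0 ≤ 2 * A - 15 / 7 * al + 125 / 343) (hb0 : 0 ≤ be) (hb1 : be ≤ 1 / 2)
    (hb2 : B ^ 2 ≤ be ^ 3) (hb3 : 0 ≤ 2 * B - 15 / 7 * be + 125 / 343) :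
    0 ≤ Rx al be A B * DF al be (A * B) - NumF al be A B (A * B) := by
  rcases ha0.eq_or_lt with h | hal
  · subst h
    have hA : A = 0 := by
      have : A ^ 2 ≤ 0 := by simpa using ha2
      exact pow_eq_zero_iff (two_ne_zero) |>.1 (le_antisymm this (sq_nonneg A))
    subst hA
    unfold Rx DF NumF
    simp
  rcases hb0.eq_or_lt with h | hbe
  · subst h
    have hB : B = 0 := by
      have : B ^ 2 ≤ 0 := by simpa using hb2
      exact pow_eq_zero_iff (two_ne_zero) |>.1 (le_antisymm this (sq_nonneg B))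
    subst hB
    unfold Rx DF NumF
    simp
  have hA1 := A_le al A ha0 ha1 ha2
  have hA2 := A_ge al A ha0 ha1 ha2 ha3
  have hB1 := A_le be B hb0 hb1 hb2
  have hB2 := A_ge be B hb0 hb1 hb2 hb3
  have eA : al * (A / al) = A := by field_simp
  have eB : be * (B / be) = B := by field_simp
  have hx0 : -(5 / 14) ≤ A / al := by
    rw [le_div_iff₀ hal]
    linarith
  have hx1 : A / al ≤ 5 / 7 := by
    rw [div_le_iff₀ hal]
    linarith
  have hy0 : -(5 / 14) ≤ B / be := by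
    rw [le_div_iff₀ hbe]
    linarith
  have hy1 : B / be ≤ 5 / 7 := by
    rw [div_le_iff₀ hbe]
    linarith
  have hTa : al * (15 / 7 - 2 * (A / al)) ≤ 125 / 343 := by
    have : al * (15 / 7 - 2 * (A / al)) = 15 / 7 * al - 2 * (al * (A / al)) := by ring
    rw [this, eA]
    linarith
  have hTb : be * (15 / 7 - 2 * (B / be)) ≤ 125 / 343 := by
    have : be * (15 / 7 - 2 * (B / be)) = 15 / 7 * be - 2 * (be * (B / be)) := by ring
    rw [this, eB]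
    linarith
  have hq := q1_nonneg al (A / al) be (B / be) hx0 hx1 hy0 hy1 ha0 hb0 hTa hTb
  have hP := P_eq al (A / al) be (B / be)
  rw [eA, eB] at hP
  rw [hP]
  exact mul_nonneg (mul_nonneg ha0 hb0) hq

/-- `m ≥ 0`.  Sketch: with `x = A / al`, `y = B / be`: `Rx = al be (-(3/2)(x+y) + 2 x y - 1/20)`.
If `A ≥ 0` and `B ≥ 0` then `2 A B ≤ (10/7) be A ≤ (3/2) be A`, so `Rx ≤ 0 ≤ 1 - al - be`.
If `A < 0` then `ha3` gives `al ≤ 25/147`, and `|A| ≤ (5/14) al`, `|B| ≤ (5/7) be` give `Rx ≤ 1/4 ≤ 1 - al - be`;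
same if `B < 0`. -/
theorem mX_nonneg (al be A B : ℝ) (ha0 : 0 ≤ al) (ha1 : al ≤ 1 / 2) (ha2 : A ^ 2 ≤ al ^ 3)
    (ha3 : 0 ≤ 2 * A - 15 / 7 * al + 125 / 343) (hb0 : 0 ≤ be) (hb1 : be ≤ 1 / 2)
    (hb2 : B ^ 2 ≤ be ^ 3) (hb3 : 0 ≤ 2 * B - 15 / 7 * be + 125 / 343) :
    0 ≤ 2 * (1 - al - be) - 2 * Rx al be A B := by
  have hA1 := A_le al A ha0 ha1 ha2
  have hA2 := A_ge al A ha0 ha1 ha2 ha3
  have hB1 := A_le be B hb0 hb1 hb2
  have hB2 := A_ge be B hb0 hb1 hb2 hb3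
  unfold Rx
  rcases le_or_gt 0 A with hA | hA
  · rcases le_or_gt 0 B with hB | hB
    · have h1 : A * B ≤ A * (5 / 7 * be) := mul_le_mul_of_nonneg_left hB1 hA
      have h2 : 0 ≤ be * A := mul_nonneg hb0 hA
      have h3 : 0 ≤ al * B := mul_nonneg ha0 hB
      have h4 : 0 ≤ al * be := mul_nonneg ha0 hb0
      nlinarith
    · have hbe : be ≤ 25 / 147 := by linarith
      have h2 : 0 ≤ be * A := mul_nonneg hb0 hA
      have h4 : 0 ≤ al * be := mul_nonneg ha0 hb0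
      have h5 : A * B ≤ 0 := mul_nonpos_of_nonneg_of_nonpos hA hB.le
      have h6 : al * (-(5 / 14) * be) ≤ al * B := mul_le_mul_of_nonneg_left hB2 ha0
      nlinarith
  · have hal : al ≤ 25 / 147 := by linarith
    rcases le_or_gt 0 B with hB | hB
    · have h3 : 0 ≤ al * B := mul_nonneg ha0 hB
      have h4 : 0 ≤ al * be := mul_nonneg ha0 hb0
      have h5 : A * B ≤ 0 := mul_nonpos_of_nonpos_of_nonneg hA.le hB
      have h6 : be * (-(5 / 14) * al) ≤ be * A := mul_le_mul_of_nonneg_left hA2 hb0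
      nlinarith
    · have hbe : be ≤ 25 / 147 := by linarith
      have h4 : 0 ≤ al * be := mul_nonneg ha0 hb0
      have h6 : be * (-(5 / 14) * al) ≤ be * A := mul_le_mul_of_nonneg_left hA2 hb0
      have h7 : al * (-(5 / 14) * be) ≤ al * B := mul_le_mul_of_nonneg_left hB2 ha0
      have h8 : (-A) * (-B) ≤ (5 / 14 * al) * (5 / 14 * be) :=
        mul_le_mul (by linarith) (by linarith) (by linarith) (by positivity)
      nlinarith

end Vale.Agent.P154
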