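import Vale.Agent.P154.RotSum
import Vale.Agent.P154.PolyX

/-!
# P154: the `x`-inequality (pointwise, averaged over the six permutations)

`S6 (K2 a) b` = (sum over the rotations of `b`) + (sum over the rotations of `(b0, b2, b1)`).
By `rot_sum` the two sums are `3 (al + be) + 3 NumF(U±) / DF(U±)` with `U± = A B ± W`, `W = dl3 a * dl3 b / 108`
(`al3`, `cu3` are symmetric, `dl3 b0 b2 b1 = - dl3 b0 b1 b2`).  `NumF` is affine in `U` with slope `2 (1 - al - be)`,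
`DF` is affine in `U` with slope `2`; `DF(U±) > 0` by `DF_eq` and `Z3_pos`.  Conclude with `frac_pair`,
`polyX_nonneg`, `mX_nonneg` (hypotheses from `Dom`: `al3_nonneg`, `cu3_sq_le`, `tri`).
-/

namespace Vale.Agent.P154

/-- `(N0 + n1 W)/(D0 + 2W) - R = (-(R D0 - N0) + (n1 - 2R) W)/(D0 + 2W)` and similarly for `-W`; the sum of the two
has numerator `-2 (R D0 - N0) D0 - 4 (n1 - 2R) W^2 ≤ 0`  (`D0 > 0` is the half sum of the denominators). -/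
theorem frac_pair (N0 n1 D0 W R : ℝ) (hp : 0 < D0 + 2 * W) (hm : 0 < D0 - 2 * W)
    (hP : 0 ≤ R * D0 - N0) (hmm : 0 ≤ n1 - 2 * R) :
    (N0 + n1 * W) / (D0 + 2 * W) + (N0 - n1 * W) / (D0 - 2 * W) ≤ 2 * R := by
  have hD0 : 0 ≤ D0 := by linarith
  rw [div_add_div _ _ hp.ne' hm.ne', div_le_iff₀ (mul_pos hp hm)]
  nlinarith [mul_nonneg hD0 hP, mul_nonneg (sq_nonneg W) hmm]

theorem key_x (a0 a1 a2 b0 b1 b2 : ℝ) (ha : a0 + a1 + a2 = 0) (hb : b0 + b1 + b2 = 0)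
    (ha0 : -(5 / 7) ≤ a0) (ha1 : -(5 / 7) ≤ a1) (ha2 : -(5 / 7) ≤ a2)
    (hb0 : -(5 / 7) ≤ b0) (hb1 : -(5 / 7) ≤ b1) (hb2 : -(5 / 7) ≤ b2)
    (hal : al3 a0 a1 a2 ≤ 1 / 2) (hbe : al3 b0 b1 b2 ≤ 1 / 2) :
    S6 (K2 a0 a1 a2) b0 b1 b2 ≤
      6 * (al3 a0 a1 a2 + al3 b0 b1 b2
        - (3 / 2 * al3 b0 b1 b2 - cu3 b0 b1 b2) * cu3 a0 a1 a2
        - (3 / 2 * al3 a0 a1 a2 - cu3 a0 a1 a2) * cu3 b0 b1 b2
        - 1 / 20 * al3 a0 a1 a2 * al3 b0 b1 b2) := by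
  have ga0 : -1 < a0 := by linarith
  have ga1 : -1 < a1 := by linarith
  have ga2 : -1 < a2 := by linarith
  have gb0 : -1 < b0 := by linarith
  have gb1 : -1 < b1 := by linarith
  have gb2 : -1 < b2 := by linarith
  have hb' : b0 + b2 + b1 = 0 := by linarith
  -- positivity of the six normalisations
  have z1 := Z3_pos a0 a1 a2 b0 b1 b2 ha hb ga0 ga1 ga2 gb0 gb1 gb2
  have z2 := Z3_pos a0 a1 a2 b1 b2 b0 ha (by linarith) ga0 ga1 ga2 gb1 gb2 gb0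
  have z3 := Z3_pos a0 a1 a2 b2 b0 b1 ha (by linarith) ga0 ga1 ga2 gb2 gb0 gb1
  have z4 := Z3_pos a0 a1 a2 b0 b2 b1 ha hb' ga0 ga1 ga2 gb0 gb2 gb1
  have z5 := Z3_pos a0 a1 a2 b2 b1 b0 ha (by linarith) ga0 ga1 ga2 gb2 gb1 gb0
  have z6 := Z3_pos a0 a1 a2 b1 b0 b2 ha (by linarith) ga0 ga1 ga2 gb1 gb0 gb2
  have r1 := rot_sum a0 a1 a2 b0 b1 b2 ha hb z1 z2 z3
  have r2 := rot_sum a0 a1 a2 b0 b2 b1 ha hb' z4 z5 z6
  have d1 := DF_eq a0 a1 a2 b0 b1 b2 ha hb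
  have d2 := DF_eq a0 a1 a2 b0 b2 b1 ha hb'
  have sal : al3 b0 b2 b1 = al3 b0 b1 b2 := by unfold al3; ring
  have scu : cu3 b0 b2 b1 = cu3 b0 b1 b2 := by unfold cu3; ring
  have sdl : dl3 b0 b2 b1 = -dl3 b0 b1 b2 := by unfold dl3; ring
  rw [sal, scu, sdl] at r2 d2
  have hA0 := al3_nonneg a0 a1 a2
  have hB0 := al3_nonneg b0 b1 b2
  have hA2 := cu3_sq_le a0 a1 a2 ha
  have hB2 := cu3_sq_le b0 b1 b2 hb
  have hA3 := tri a0 a1 a2 ha ha0 ha1 ha2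
  have hB3 := tri b0 b1 b2 hb hb0 hb1 hb2
  have p1 : 0 < Z3 a0 a1 a2 b0 b1 b2 * Z3 a0 a1 a2 b1 b2 b0 * Z3 a0 a1 a2 b2 b0 b1 :=
    mul_pos (mul_pos z1 z2) z3
  have p2 : 0 < Z3 a0 a1 a2 b0 b2 b1 * Z3 a0 a1 a2 b2 b1 b0 * Z3 a0 a1 a2 b1 b0 b2 :=
    mul_pos (mul_pos z4 z5) z6
  rw [d1] at p1
  rw [d2] at p2
  generalize al3 a0 a1 a2 = al at *
  generalize al3 b0 b1 b2 = be at *
  generalize cu3 a0 a1 a2 = A at *
  generalize cu3 b0 b1 b2 = B at *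
  generalize hW : dl3 a0 a1 a2 * dl3 b0 b1 b2 / 108 = W at *
  have hW' : dl3 a0 a1 a2 * -dl3 b0 b1 b2 / 108 = -W := by rw [← hW]; ring
  rw [hW'] at r2 p2
  have hP := polyX_nonneg al be A B hA0 hal hA2 hA3 hB0 hbe hB2 hB3
  have hM := mX_nonneg al be A B hA0 hal hA2 hA3 hB0 hbe hB2 hB3
  have eD1 : DF al be (A * B + W) = DF al be (A * B) + 2 * W := by unfold DF; ring
  have eD2 : DF al be (A * B + -W) = DF al be (A * B) - 2 * W := by unfold DF; ring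
  have eN1 : NumF al be A B (A * B + W) = NumF al be A B (A * B) + 2 * (1 - al - be) * W := by
    unfold NumF; ring
  have eN2 : NumF al be A B (A * B + -W) = NumF al be A B (A * B) - 2 * (1 - al - be) * W := by
    unfold NumF; ring
  rw [eD1] at p1 r1
  rw [eD2] at p2 r2
  rw [eN1] at r1
  rw [eN2] at r2
  have hf := frac_pair (NumF al be A B (A * B)) (2 * (1 - al - be)) (DF al be (A * B)) W
    (Rx al be A B) p1 p2 hP hM
  have hS : S6 (K2 a0 a1 a2) b0 b1 b2 =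
      (K2 a0 a1 a2 b0 b1 b2 + K2 a0 a1 a2 b1 b2 b0 + K2 a0 a1 a2 b2 b0 b1)
        + (K2 a0 a1 a2 b0 b2 b1 + K2 a0 a1 a2 b2 b1 b0 + K2 a0 a1 a2 b1 b0 b2) := by
    unfold S6; ring
  rw [hS, r1, r2]
  have hR : Rx al be A B = -(3 / 2) * (be * A + al * B) + 2 * A * B - (1 / 20) * al * be := rfl
  rw [hR] at hf
  linarith

end Vale.Agent.P154
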