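import Vale.Agent.P154.FamSix
import Vale.Agent.P154.KeyX

/-!
# P154: one step of the recursion for `Xf`

Write `a = lam • e η`, `b = lam • e η'`.  `Xf (w2) (e2) = ∑ η η', w η w η' K2 a b` (definitional unfolding of `K2`, `Fintype.sum_prod_type`).
For fixed `η`, by `Good.six` applied to `f = fun x y z => K2 a0 a1 a2 (lam * x) (lam * y) (lam * z)`,
`∑ η', w η' K2 a b = (1/6) ∑ η', w η' S6 (K2 a) b`; apply `key_x` (hypotheses from `Good.dom`); then sum, using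
`∑ w = 1`, `al3_smul`, `cu3_smul`.  With `X = Xf w e`, `T = Tf w e`, `ϑ = ∑ w η (3/2 al3 (lam e η) - cu3 (lam e η)) ≥ 0`
(`A_le` with `cu3_sq_le`: `cu3 ≤ (5/7) al3`) one gets
`Xf' ≤ 2 lam^2 X - 2 ϑ lam^3 T - (1/20) lam^4 X^2 ≤ 2 lam^2 X - (1/20) lam^4 X^2`.
-/

namespace Vale.Agent.P154

open Finset

variable {ι : Type} [Fintype ι] {w : ι → ℝ} {e : ι → Fin 3 → ℝ}

theorem Xf_w2_eq (lam : ℝ) (w : ι → ℝ) (e : ι → Fin 3 → ℝ) :
    Xf (w2 lam w e) (e2 lam e) = ∑ η, w η * ∑ η', w η' *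
      K2 (lam * e η 0) (lam * e η 1) (lam * e η 2) (lam * e η' 0) (lam * e η' 1) (lam * e η' 2) := by
  unfold Xf
  rw [Fintype.sum_prod_type]
  refine Finset.sum_congr rfl fun η _ => ?_
  rw [Finset.mul_sum]
  refine Finset.sum_congr rfl fun η' _ => ?_
  simp only [w2, e2, ZZ, K2]
  ring

/-- the inner sum, bounded with `key_x` -/
theorem Good.inner_le (h : Good w e) (lam : ℝ) (h0 : 0 ≤ lam) (h1 : 2 * lam ^ 2 ≤ 1) (η : ι) :
    ∑ η', w η' *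
      K2 (lam * e η 0) (lam * e η 1) (lam * e η 2) (lam * e η' 0) (lam * e η' 1) (lam * e η' 2) ≤
    lam ^ 2 * al3 (e η 0) (e η 1) (e η 2) + lam ^ 2 * Xf w e
      - (3 / 2 * lam ^ 2 * Xf w e - lam ^ 3 * Tf w e) * (lam ^ 3 * cu3 (e η 0) (e η 1) (e η 2))
      - (3 / 2 * (lam ^ 2 * al3 (e η 0) (e η 1) (e η 2)) - lam ^ 3 * cu3 (e η 0) (e η 1) (e η 2))
          * (lam ^ 3 * Tf w e)
      - 1 / 20 * (lam ^ 2 * al3 (e η 0) (e η 1) (e η 2)) * (lam ^ 2 * Xf w e) := by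
  have hs := h.six (fun x y z =>
    K2 (lam * e η 0) (lam * e η 1) (lam * e η 2) (lam * x) (lam * y) (lam * z))
  rw [hs]
  obtain ⟨ha, hag, hal⟩ := h.dom lam h0 h1 η
  have hterm : ∀ η', w η' * S6 (fun x y z =>
      K2 (lam * e η 0) (lam * e η 1) (lam * e η 2) (lam * x) (lam * y) (lam * z))
        (e η' 0) (e η' 1) (e η' 2) ≤
      w η' * (6 * (lam ^ 2 * al3 (e η 0) (e η 1) (e η 2) + lam ^ 2 * al3 (e η' 0) (e η' 1) (e η' 2)
        - (3 / 2 * (lam ^ 2 * al3 (e η' 0) (e η' 1) (e η' 2)) - lam ^ 3 * cu3 (e η' 0) (e η' 1) (e η' 2))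
            * (lam ^ 3 * cu3 (e η 0) (e η 1) (e η 2))
        - (3 / 2 * (lam ^ 2 * al3 (e η 0) (e η 1) (e η 2)) - lam ^ 3 * cu3 (e η 0) (e η 1) (e η 2))
            * (lam ^ 3 * cu3 (e η' 0) (e η' 1) (e η' 2))
        - 1 / 20 * (lam ^ 2 * al3 (e η 0) (e η 1) (e η 2))
            * (lam ^ 2 * al3 (e η' 0) (e η' 1) (e η' 2)))) := by
    intro η'
    obtain ⟨hb, hbg, hbe⟩ := h.dom lam h0 h1 η'
    have hk := key_x _ _ _ _ _ _ ha hb (hag 0) (hag 1) (hag 2) (hbg 0) (hbg 1) (hbg 2) hal hbe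
    rw [al3_smul, al3_smul, cu3_smul, cu3_smul] at hk
    exact mul_le_mul_of_nonneg_left hk (h.pos η').le
  have hsum := Finset.sum_le_sum (fun η' (_ : η' ∈ Finset.univ) => hterm η')
  refine (mul_le_mul_of_nonneg_left hsum (by norm_num : (0:ℝ) ≤ 1 / 6)).trans (le_of_eq ?_)
  have htot := h.tot
  set p := al3 (e η 0) (e η 1) (e η 2)
  set q := cu3 (e η 0) (e η 1) (e η 2)
  have hexp : ∀ η', w η' * (6 * (lam ^ 2 * p + lam ^ 2 * al3 (e η' 0) (e η' 1) (e η' 2)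
        - (3 / 2 * (lam ^ 2 * al3 (e η' 0) (e η' 1) (e η' 2)) - lam ^ 3 * cu3 (e η' 0) (e η' 1) (e η' 2))
            * (lam ^ 3 * q)
        - (3 / 2 * (lam ^ 2 * p) - lam ^ 3 * q)
            * (lam ^ 3 * cu3 (e η' 0) (e η' 1) (e η' 2))
        - 1 / 20 * (lam ^ 2 * p)
            * (lam ^ 2 * al3 (e η' 0) (e η' 1) (e η' 2)))) =
      (6 * lam ^ 2 * p) * w η'
        + (6 * lam ^ 2 - 9 * lam ^ 5 * q - 3 / 10 * lam ^ 4 * p)
            * (w η' * al3 (e η' 0) (e η' 1) (e η' 2))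
        + (6 * lam ^ 6 * q - 6 * (3 / 2 * (lam ^ 2 * p) - lam ^ 3 * q) * lam ^ 3)
            * (w η' * cu3 (e η' 0) (e η' 1) (e η' 2)) := by
    intro η'; ring
  simp only [hexp]
  rw [Finset.sum_add_distrib, Finset.sum_add_distrib, ← Finset.mul_sum, ← Finset.mul_sum,
    ← Finset.mul_sum, htot]
  unfold Xf Tf
  ring

theorem Good.theta_nonneg (h : Good w e) (lam : ℝ) (h0 : 0 ≤ lam) (h1 : 2 * lam ^ 2 ≤ 1) :
    0 ≤ 3 / 2 * lam ^ 2 * Xf w e - lam ^ 3 * Tf w e := by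
  have hterm : ∀ η, 0 ≤ w η * (3 / 2 * lam ^ 2 * al3 (e η 0) (e η 1) (e η 2)
      - lam ^ 3 * cu3 (e η 0) (e η 1) (e η 2)) := by
    intro η
    obtain ⟨ha, _, hal⟩ := h.dom lam h0 h1 η
    have h2 := cu3_sq_le _ _ _ ha
    have h3 := A_le _ _ (al3_nonneg _ _ _) hal h2
    have h4 := al3_nonneg (lam * e η 0) (lam * e η 1) (lam * e η 2)
    rw [al3_smul] at h3 h4
    rw [cu3_smul] at h3
    refine mul_nonneg (h.pos η).le ?_
    linarith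
  have hsum := Finset.sum_nonneg (fun η (_ : η ∈ Finset.univ) => hterm η)
  have : ∑ η, w η * (3 / 2 * lam ^ 2 * al3 (e η 0) (e η 1) (e η 2)
      - lam ^ 3 * cu3 (e η 0) (e η 1) (e η 2)) = 3 / 2 * lam ^ 2 * Xf w e - lam ^ 3 * Tf w e := by
    unfold Xf Tf
    rw [Finset.mul_sum, Finset.mul_sum, ← Finset.sum_sub_distrib]
    refine Finset.sum_congr rfl fun η _ => ?_
    ring
  linarith

theorem Good.X_step (h : Good w e) (lam : ℝ) (h0 : 0 ≤ lam) (h1 : 2 * lam ^ 2 ≤ 1)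
    (hT : 0 ≤ Tf w e) :
    Xf (w2 lam w e) (e2 lam e) ≤ 2 * lam ^ 2 * Xf w e - 1 / 20 * lam ^ 4 * Xf w e ^ 2 := by
  rw [Xf_w2_eq]
  have hsum := Finset.sum_le_sum (fun η (_ : η ∈ Finset.univ) =>
    mul_le_mul_of_nonneg_left (h.inner_le lam h0 h1 η) (h.pos η).le)
  refine hsum.trans ?_
  have hth := h.theta_nonneg lam h0 h1
  have htot := h.tot
  set X := Xf w e with hX
  set T := Tf w e with hTd
  have hexp : ∀ η, w η * (lam ^ 2 * al3 (e η 0) (e η 1) (e η 2) + lam ^ 2 * X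
      - (3 / 2 * lam ^ 2 * X - lam ^ 3 * T) * (lam ^ 3 * cu3 (e η 0) (e η 1) (e η 2))
      - (3 / 2 * (lam ^ 2 * al3 (e η 0) (e η 1) (e η 2)) - lam ^ 3 * cu3 (e η 0) (e η 1) (e η 2))
          * (lam ^ 3 * T)
      - 1 / 20 * (lam ^ 2 * al3 (e η 0) (e η 1) (e η 2)) * (lam ^ 2 * X)) =
      (lam ^ 2 * X) * w η
        + (lam ^ 2 - 3 / 2 * lam ^ 5 * T - 1 / 20 * lam ^ 4 * X)
            * (w η * al3 (e η 0) (e η 1) (e η 2))
        + (lam ^ 6 * T - (3 / 2 * lam ^ 2 * X - lam ^ 3 * T) * lam ^ 3)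
            * (w η * cu3 (e η 0) (e η 1) (e η 2)) := by
    intro η; ring
  simp only [hexp]
  rw [Finset.sum_add_distrib, Finset.sum_add_distrib, ← Finset.mul_sum, ← Finset.mul_sum,
    ← Finset.mul_sum, htot]
  have hXe : ∑ η, w η * al3 (e η 0) (e η 1) (e η 2) = X := rfl
  have hTe : ∑ η, w η * cu3 (e η 0) (e η 1) (e η 2) = T := rfl
  rw [hXe, hTe]
  have hl3 : 0 ≤ lam ^ 3 := by positivity
  have := mul_nonneg (mul_nonneg hth hl3) hT
  nlinarith [this]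

end Vale.Agent.P154
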