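import Vale.Agent.P154.RotId

/-!
# P154: exact sum of `K2` over the three rotations

`K2 = N2 / Z3` (unfold; `field_simp`; `ring`).  `N2 ≥ 0`: `3 Z3 = ∑ (1+a i)(1+b i)` for sum-zero vectors and
`3 ∑ p_i^2 ≥ (∑ p_i)^2`.
`rot_sum`: rewrite with `K2_eq`, put on the common denominator `Z Z' Z'' = DF ..` (`DF_eq`), use `N2_rot`.
-/

namespace Vale.Agent.P154

theorem K2_eq (a0 a1 a2 b0 b1 b2 : ℝ) (ha : a0 + a1 + a2 = 0) (hb : b0 + b1 + b2 = 0)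
    (hZ : 0 < Z3 a0 a1 a2 b0 b1 b2) :
    K2 a0 a1 a2 b0 b1 b2 = N2 a0 a1 a2 b0 b1 b2 / Z3 a0 a1 a2 b0 b1 b2 := by
  have hsum : (1 + a0) * (1 + b0) + (1 + a1) * (1 + b1) + (1 + a2) * (1 + b2)
      = 3 * Z3 a0 a1 a2 b0 b1 b2 := by
    unfold Z3
    linear_combination ha + hb
  unfold K2 N2 al3
  generalize Z3 a0 a1 a2 b0 b1 b2 = Z at hZ hsum ⊢
  have hZ' : Z ≠ 0 := hZ.ne'
  field_simp
  linear_combination (-2 * Z) * hsum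

theorem N2_nonneg (a0 a1 a2 b0 b1 b2 : ℝ) (ha : a0 + a1 + a2 = 0) (hb : b0 + b1 + b2 = 0) :
    0 ≤ N2 a0 a1 a2 b0 b1 b2 := by
  have hsum : (1 + a0) * (1 + b0) + (1 + a1) * (1 + b1) + (1 + a2) * (1 + b2)
      = 3 * Z3 a0 a1 a2 b0 b1 b2 := by
    unfold Z3
    linear_combination ha + hb
  unfold N2
  generalize Z3 a0 a1 a2 b0 b1 b2 = Z at hsum ⊢
  generalize (1 + a0) * (1 + b0) = p0 at hsum ⊢
  generalize (1 + a1) * (1 + b1) = p1 at hsum ⊢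
  generalize (1 + a2) * (1 + b2) = p2 at hsum ⊢
  have hZ : Z = (p0 + p1 + p2) / 3 := by linarith
  subst hZ
  have : 0 ≤ (p0 - p1) ^ 2 + (p1 - p2) ^ 2 + (p2 - p0) ^ 2 := by positivity
  nlinarith

theorem rot_sum (a0 a1 a2 b0 b1 b2 : ℝ) (ha : a0 + a1 + a2 = 0) (hb : b0 + b1 + b2 = 0)
    (h0 : 0 < Z3 a0 a1 a2 b0 b1 b2) (h1 : 0 < Z3 a0 a1 a2 b1 b2 b0)
    (h2 : 0 < Z3 a0 a1 a2 b2 b0 b1) :
    K2 a0 a1 a2 b0 b1 b2 + K2 a0 a1 a2 b1 b2 b0 + K2 a0 a1 a2 b2 b0 b1 =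
      3 * (al3 a0 a1 a2 + al3 b0 b1 b2)
        + 3 * (NumF (al3 a0 a1 a2) (al3 b0 b1 b2) (cu3 a0 a1 a2) (cu3 b0 b1 b2)
            (cu3 a0 a1 a2 * cu3 b0 b1 b2 + dl3 a0 a1 a2 * dl3 b0 b1 b2 / 108) /
          DF (al3 a0 a1 a2) (al3 b0 b1 b2)
            (cu3 a0 a1 a2 * cu3 b0 b1 b2 + dl3 a0 a1 a2 * dl3 b0 b1 b2 / 108)) := by
  have hb1 : b1 + b2 + b0 = 0 := by linarith
  have hb2 : b2 + b0 + b1 = 0 := by linarith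
  rw [K2_eq a0 a1 a2 b0 b1 b2 ha hb h0, K2_eq a0 a1 a2 b1 b2 b0 ha hb1 h1,
    K2_eq a0 a1 a2 b2 b0 b1 ha hb2 h2]
  have hD := DF_eq a0 a1 a2 b0 b1 b2 ha hb
  have hN := N2_rot a0 a1 a2 b0 b1 b2 ha hb
  rw [← hD] at hN ⊢
  generalize NumF (al3 a0 a1 a2) (al3 b0 b1 b2) (cu3 a0 a1 a2) (cu3 b0 b1 b2)
            (cu3 a0 a1 a2 * cu3 b0 b1 b2 + dl3 a0 a1 a2 * dl3 b0 b1 b2 / 108) = NF at hN ⊢
  generalize al3 a0 a1 a2 + al3 b0 b1 b2 = s at hN ⊢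
  generalize N2 a0 a1 a2 b0 b1 b2 = n0 at hN ⊢
  generalize N2 a0 a1 a2 b1 b2 b0 = n1 at hN ⊢
  generalize N2 a0 a1 a2 b2 b0 b1 = n2 at hN ⊢
  generalize Z3 a0 a1 a2 b0 b1 b2 = z0 at h0 hN ⊢
  generalize Z3 a0 a1 a2 b1 b2 b0 = z1 at h1 hN ⊢
  generalize Z3 a0 a1 a2 b2 b0 b1 = z2 at h2 hN ⊢
  have e0 : z0 ≠ 0 := h0.ne'
  have e1 : z1 ≠ 0 := h1.ne'
  have e2 : z2 ≠ 0 := h2.ne'
  field_simp
  linear_combination hN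

end Vale.Agent.P154
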