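import Vale.Agent.P154.Tree
import Vale.Agent.P154.FamTV
import Vale.Agent.P154.Conv

namespace Vale.Agent.P154

open Filter Topology

theorem binary_nonreconstruction (lam : ℝ) (h0 : 0 ≤ lam) (h1 : 2 * lam ^ 2 ≤ 1) :
    Tendsto (fun n => aTV 3 2 lam n) atTop (𝓝 0) := by
  have hx : Tendsto (fun n => Xf (marg 3 2 lam n) (ev lam n)) atTop (𝓝 0) :=
    seq_zero' _ lam h0 h1 (fun n => (tree_good lam h0 h1 n).1.Xf_nonneg)
      (fun n => tree_X_step lam h0 h1 n)
  refine tendsto_of_sq_le _ _ ?_ ?_ hx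
  · intro n
    rw [aTV_eq]
    refine Finset.sum_nonneg (fun η _ => ?_)
    have := ((tree_good lam h0 h1 n).1.pos η).le
    positivity
  · intro n
    rw [aTV_eq]
    exact (tree_good lam h0 h1 n).1.tv_sq_le

end Vale.Agent.P154
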