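import Vale.Agent.P154.Dom

/-!
# P154: two polynomial identities for the three rotations

For sum-zero `a`, `b` put `al = al3 a`, `be = al3 b`, `A = cu3 a`, `B = cu3 b`, `U = A * B + dl3 a * dl3 b / 108`.  Then
`Z3 a b * Z3 a (rot b) * Z3 a (rot^2 b) = DF al be U`  and
`N2 a b * Z' * Z'' + N2 a (rot b) * Z * Z'' + N2 a (rot^2 b) * Z * Z' = 3 (al + be) DF al be U + 3 NumF al be A B U`.
Both are polynomial identities: substitute `a2 = -a0 - a1`, `b2 = -b0 - b1` (`obtain rfl : a2 = -a0 - a1 := by linarith`), unfold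
everything, `ring`.  If `ring` is too slow in one go, split by hand (e.g. expand `N2` as a polynomial in the elementary pieces first).
Both identities were checked with exact rational arithmetic on random points.
-/

namespace Vale.Agent.P154

theorem DF_eq (a0 a1 a2 b0 b1 b2 : ℝ) (ha : a0 + a1 + a2 = 0) (hb : b0 + b1 + b2 = 0) :
    Z3 a0 a1 a2 b0 b1 b2 * Z3 a0 a1 a2 b1 b2 b0 * Z3 a0 a1 a2 b2 b0 b1 =
      DF (al3 a0 a1 a2) (al3 b0 b1 b2)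
        (cu3 a0 a1 a2 * cu3 b0 b1 b2 + dl3 a0 a1 a2 * dl3 b0 b1 b2 / 108) := by
  obtain rfl : a2 = -a0 - a1 := by linarith
  obtain rfl : b2 = -b0 - b1 := by linarith
  unfold Z3 DF al3 cu3 dl3
  ring

theorem N2_rot (a0 a1 a2 b0 b1 b2 : ℝ) (ha : a0 + a1 + a2 = 0) (hb : b0 + b1 + b2 = 0) :
    N2 a0 a1 a2 b0 b1 b2 * (Z3 a0 a1 a2 b1 b2 b0 * Z3 a0 a1 a2 b2 b0 b1)
      + N2 a0 a1 a2 b1 b2 b0 * (Z3 a0 a1 a2 b0 b1 b2 * Z3 a0 a1 a2 b2 b0 b1)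
      + N2 a0 a1 a2 b2 b0 b1 * (Z3 a0 a1 a2 b0 b1 b2 * Z3 a0 a1 a2 b1 b2 b0) =
      3 * (al3 a0 a1 a2 + al3 b0 b1 b2) *
          DF (al3 a0 a1 a2) (al3 b0 b1 b2)
            (cu3 a0 a1 a2 * cu3 b0 b1 b2 + dl3 a0 a1 a2 * dl3 b0 b1 b2 / 108)
        + 3 * NumF (al3 a0 a1 a2) (al3 b0 b1 b2) (cu3 a0 a1 a2) (cu3 b0 b1 b2)
            (cu3 a0 a1 a2 * cu3 b0 b1 b2 + dl3 a0 a1 a2 * dl3 b0 b1 b2 / 108) := by
  obtain rfl : a2 = -a0 - a1 := by linarith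
  obtain rfl : b2 = -b0 - b1 := by linarith
  simp only [N2, Z3, DF, NumF, al3, cu3, dl3]
  ring

end Vale.Agent.P154
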