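import Vale.Agent.P154.TreeSucc
import Vale.Agent.P154.FamStep
import Vale.Agent.P154.FamX
import Vale.Agent.P154.FamT
import Vale.Agent.P154.FamEquiv

/-!
# P154: the binary tree with three colours as an iteration of `w2`, `e2`

By `marg_succ`, `ev_succ`: `marg (n+1) = fun η => w2 .. (φ η)`, `ev (n+1) = fun η => e2 .. (φ η)` with
`φ = piFinTwoEquiv (fun _ => Conf 3 2 n) : (Fin 2 → Conf 3 2 n) ≃ Conf 3 2 n × Conf 3 2 n`  (`φ η = (η 0, η 1)`).
`tree_good`: induction on `n` with `base_good`, `base_T`, `Good.step`, `Good.T_step`, `Good.of_equiv`, `Tf_equiv`.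
`tree_X_step`: `Good.X_step`, `Xf_equiv`.
The `Fintype` instance on `Conf 3 2 (n+1)` is definitionally the Pi instance.
-/

namespace Vale.Agent.P154

open Finset

/-- the bijection between the leaf colourings of depth `n + 1` and pairs of colourings of depth `n` -/
def confEquiv (n : ℕ) : Conf 3 2 (n + 1) ≃ Conf 3 2 n × Conf 3 2 n :=
  piFinTwoEquiv (fun _ => Conf 3 2 n)

theorem confEquiv_apply (n : ℕ) (η : Conf 3 2 (n + 1)) : confEquiv n η = (η 0, η 1) := rfl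

theorem marg_succ_fun (lam : ℝ) (n : ℕ) (h : Good (marg 3 2 lam n) (ev lam n)) :
    marg 3 2 lam (n + 1) =
      fun η => w2 lam (marg 3 2 lam n) (ev lam n) (confEquiv n η) := by
  funext η
  rw [confEquiv_apply]
  exact marg_succ lam n h η

theorem ev_succ_fun (lam : ℝ) (h0 : 0 ≤ lam) (h1 : 2 * lam ^ 2 ≤ 1) (n : ℕ)
    (h : Good (marg 3 2 lam n) (ev lam n)) :
    ev lam (n + 1) = fun η => e2 lam (ev lam n) (confEquiv n η) := by
  funext η
  rw [confEquiv_apply]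
  exact ev_succ lam h0 h1 n h η

theorem tree_good (lam : ℝ) (h0 : 0 ≤ lam) (h1 : 2 * lam ^ 2 ≤ 1) (n : ℕ) :
    Good (marg 3 2 lam n) (ev lam n) ∧ 0 ≤ Tf (marg 3 2 lam n) (ev lam n) := by
  induction n with
  | zero => exact ⟨base_good lam, base_T lam⟩
  | succ n ih =>
    obtain ⟨hg, hT⟩ := ih
    rw [marg_succ_fun lam n hg, ev_succ_fun lam h0 h1 n hg]
    refine ⟨Good.of_equiv (confEquiv n) (hg.step lam h0 h1), ?_⟩
    rw [Tf_equiv (confEquiv n)]
    exact hg.T_step lam h0 h1 hT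

theorem tree_X_step (lam : ℝ) (h0 : 0 ≤ lam) (h1 : 2 * lam ^ 2 ≤ 1) (n : ℕ) :
    Xf (marg 3 2 lam (n + 1)) (ev lam (n + 1)) ≤
      2 * lam ^ 2 * Xf (marg 3 2 lam n) (ev lam n)
        - 1 / 20 * lam ^ 4 * Xf (marg 3 2 lam n) (ev lam n) ^ 2 := by
  obtain ⟨hg, hT⟩ := tree_good lam h0 h1 n
  rw [marg_succ_fun lam n hg, ev_succ_fun lam h0 h1 n hg, Xf_equiv (confEquiv n)]
  exact hg.X_step lam h0 h1 hT

end Vale.Agent.P154
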