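import Vale.Agent.P154.Defs
import Vale.Agent.P154.Fam

/-!
# P154: deviations of the posterior on the binary tree; the base case

`ev lam n η i = 3 * post i η - 1` is the deviation of the posterior.
Base case: `Conf 3 2 0 = Fin 3` (definitionally), `marg = 1/3`, `ev η i = 3 * 1{η = i} - 1`, `Xf = 1`, `Tf = 1`
(`Fin.sum_univ_three`, `fin_cases`; the `Fintype` instance on `Conf 3 2 0` is definitionally the one of `Fin 3`; it may help to
state auxiliary lemmas for `η : Fin 3` and use `show`/`change`).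
`aTV_eq`: `|post - 1/3| = |ev| / 3`, `Fin.sum_univ_three`.
-/

namespace Vale.Agent.P154

open Finset

noncomputable def ev (lam : ℝ) (n : ℕ) (η : Conf 3 2 n) (i : Fin 3) : ℝ :=
  3 * post 3 2 lam n i η - 1

theorem sum_conf_zero (f : Conf 3 2 0 → ℝ) :
    ∑ η, f η = f (0 : Fin 3) + f (1 : Fin 3) + f (2 : Fin 3) :=
  Fin.sum_univ_three f

theorem lik_zero (lam : ℝ) (i η : Fin 3) :
    lik 3 2 lam 0 i η = if η = i then 1 else 0 := rfl

theorem marg_zero (lam : ℝ) (η : Fin 3) : marg 3 2 lam 0 η = 1 / 3 := by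
  unfold marg
  rw [Fin.sum_univ_three, lik_zero, lik_zero, lik_zero]
  fin_cases η <;> simp

theorem ev_zero (lam : ℝ) (η i : Fin 3) :
    ev lam 0 η i = 3 * (if η = i then 1 else 0) - 1 := by
  unfold ev post
  rw [marg_zero, lik_zero]
  push_cast
  ring

theorem base_good (lam : ℝ) : Good (marg 3 2 lam 0) (ev lam 0) := by
  refine ⟨?_, ?_, ?_, ?_, ?_, ?_⟩
  · intro η
    have h := marg_zero lam η
    rw [h]
    norm_num
  · rw [sum_conf_zero, marg_zero, marg_zero, marg_zero]
    norm_num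
  · intro η
    have h : ∀ η : Fin 3, ev lam 0 η 0 + ev lam 0 η 1 + ev lam 0 η 2 = 0 := by
      intro η
      rw [ev_zero, ev_zero, ev_zero]
      fin_cases η <;> simp <;> norm_num
    exact h η
  · intro η i
    have h := ev_zero lam η i
    rw [h]
    split_ifs <;> norm_num
  · intro f
    rw [sum_conf_zero, sum_conf_zero]
    simp only [ev_zero, marg_zero]
    simp
    ring
  · intro f
    rw [sum_conf_zero, sum_conf_zero]
    simp only [ev_zero, marg_zero]
    simp
    ring

theorem base_T (lam : ℝ) : 0 ≤ Tf (marg 3 2 lam 0) (ev lam 0) := by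
  unfold Tf
  rw [sum_conf_zero]
  simp only [ev_zero, marg_zero, cu3]
  simp
  norm_num

/-- `aTV` in terms of the deviations: `|post - 1/3| = |ev| / 3`. -/
theorem aTV_eq (lam : ℝ) (n : ℕ) :
    aTV 3 2 lam n =
      ∑ η, marg 3 2 lam n η * ((1 / 6) * (|ev lam n η 0| + |ev lam n η 1| + |ev lam n η 2|)) := by
  unfold aTV
  refine Finset.sum_congr rfl fun η _ => ?_
  rw [Fin.sum_univ_three]
  have key : ∀ i, |ev lam n η i| = 3 * |post 3 2 lam n i η - 1 / ((3 : ℕ) : ℝ)| := by
    intro i
    unfold ev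
    have h3 : 3 * post 3 2 lam n i η - 1 = 3 * (post 3 2 lam n i η - 1 / ((3 : ℕ) : ℝ)) := by
      push_cast; ring
    rw [h3, abs_mul]
    norm_num
  rw [key, key, key]
  ring

end Vale.Agent.P154
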