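import Vale.Agent.P154.TreeBase
import Vale.Agent.P154.FamSix

/-!
# P154: one level of the binary tree, pointwise

`lik n i η = marg n η * (1 + ev n η i)` since `marg n η > 0` (`Good.pos`).
The message of a child: `∑ j, potts 3 lam i j * lik n j η = marg n η * (1 + lam * ev n η i)` (uses `∑ i, ev = 0`, `Good.zero`;
`Fin.sum_univ_three`, `fin_cases i`).
Hence for `η : Conf 3 2 (n+1) = Fin 2 → Conf 3 2 n`:
`lik (n+1) i η = marg n (η 0) * marg n (η 1) * (1 + lam ev (η 0) i) (1 + lam ev (η 1) i)`  (`Fin.prod_univ_two`),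
`marg (n+1) η = w2 lam (marg n) (ev n) (η 0, η 1)`, `ev (n+1) η = e2 lam (ev n) (η 0, η 1)` (`Good.ZZ_pos` for the division).
-/

namespace Vale.Agent.P154

open Finset

theorem lik_eq (lam : ℝ) (n : ℕ) (h : Good (marg 3 2 lam n) (ev lam n)) (η : Conf 3 2 n)
    (i : Fin 3) : lik 3 2 lam n i η = marg 3 2 lam n η * (1 + ev lam n η i) := by
  have hp := (h.pos η).ne'
  unfold ev post
  push_cast
  field_simp
  ring

theorem msg_eq (lam : ℝ) (n : ℕ) (h : Good (marg 3 2 lam n) (ev lam n)) (η : Conf 3 2 n)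
    (i : Fin 3) : ∑ j : Fin 3, potts 3 lam i j * lik 3 2 lam n j η =
      marg 3 2 lam n η * (1 + lam * ev lam n η i) := by
  have hm : marg 3 2 lam n η =
      (lik 3 2 lam n 0 η + lik 3 2 lam n 1 η + lik 3 2 lam n 2 η) / 3 := by
    unfold marg
    rw [Fin.sum_univ_three]
    push_cast
    ring
  have hl := lik_eq lam n h η i
  have h2 : marg 3 2 lam n η * (1 + lam * ev lam n η i) =
      lam * lik 3 2 lam n i η + (1 - lam) * marg 3 2 lam n η := by
    rw [hl]; ring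
  rw [h2, hm, Fin.sum_univ_three]
  unfold potts
  fin_cases i <;> simp <;> ring

theorem lik_succ (lam : ℝ) (n : ℕ) (h : Good (marg 3 2 lam n) (ev lam n)) (η : Conf 3 2 (n + 1))
    (i : Fin 3) : lik 3 2 lam (n + 1) i η =
      marg 3 2 lam n (η 0) * marg 3 2 lam n (η 1) *
        ((1 + lam * ev lam n (η 0) i) * (1 + lam * ev lam n (η 1) i)) := by
  have : lik 3 2 lam (n + 1) i η =
      ∏ k : Fin 2, ∑ j : Fin 3, potts 3 lam i j * lik 3 2 lam n j (η k) := rfl
  rw [this, Fin.prod_univ_two, msg_eq lam n h, msg_eq lam n h]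
  ring

/-- one level of the tree, pointwise -/
theorem marg_succ (lam : ℝ) (n : ℕ) (h : Good (marg 3 2 lam n) (ev lam n)) (η : Conf 3 2 (n + 1)) :
    marg 3 2 lam (n + 1) η = w2 lam (marg 3 2 lam n) (ev lam n) (η 0, η 1) := by
  have hz0 := h.zero (η 0)
  have hz1 := h.zero (η 1)
  have : marg 3 2 lam (n + 1) η = ∑ i : Fin 3, (1 / ((3 : ℕ) : ℝ)) * lik 3 2 lam (n + 1) i η := rfl
  rw [this, Fin.sum_univ_three, lik_succ lam n h, lik_succ lam n h, lik_succ lam n h]
  simp only [w2, ZZ, Z3]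
  push_cast
  have e02 : ev lam n (η 0) 2 = - ev lam n (η 0) 0 - ev lam n (η 0) 1 := by linarith
  have e12 : ev lam n (η 1) 2 = - ev lam n (η 1) 0 - ev lam n (η 1) 1 := by linarith
  rw [e02, e12]
  ring

theorem ev_succ (lam : ℝ) (h0 : 0 ≤ lam) (h1 : 2 * lam ^ 2 ≤ 1) (n : ℕ)
    (h : Good (marg 3 2 lam n) (ev lam n)) (η : Conf 3 2 (n + 1)) :
    ev lam (n + 1) η = e2 lam (ev lam n) (η 0, η 1) := by
  funext i
  have hZ := (h.ZZ_pos lam h0 h1 (η 0, η 1)).ne'
  have hp0 := (h.pos (η 0)).ne'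
  have hp1 := (h.pos (η 1)).ne'
  have : ev lam (n + 1) η i =
      3 * ((1 / ((3 : ℕ) : ℝ)) * lik 3 2 lam (n + 1) i η / marg 3 2 lam (n + 1) η) - 1 := rfl
  rw [this, marg_succ lam n h, lik_succ lam n h]
  simp only [w2, e2]
  push_cast
  field_simp

end Vale.Agent.P154
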